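import Mathlib

/-!
# Polynomial identities behind S0409 and S0410
-/

namespace Crest.Agent.R268.AS

section defs
variable {R : Type*} [CommRing R]

def hH (x a b : R) : R := a ^ 2 - x * b
def hJ (x a c : R) : R := a ^ 3 - x * c
def hP (x a b c : R) : R :=
  -2 * a ^ 3 * c + x * c ^ 2 + 3 * a ^ 4 * b - 3 * a ^ 2 * x * b ^ 2 + x ^ 2 * b ^ 3
def al (P : R) : R := 2 * P ^ 2
def be (H P : R) : R := -3 * H * P - 3 * P ^ 3
def gG (H J P : R) : R := al P * J + be H P * H
def a0 (H J P : R) : R := al P * H ^ 2 + be H P * J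
def b0 (x H J P : R) : R := P * (be H P ^ 2 - al P ^ 2 * H) - 2 * H * gG H J P - H * x
def c0 (x H J P : R) : R :=
  P * (-al P ^ 3 * (J ^ 2 + H ^ 3) - 3 * al P ^ 2 * be H P * H * J + be H P ^ 3 * J)
    - J * (3 * gG H J P ^ 2 + 3 * gG H J P * x + x ^ 2)
/-- The polynomial `F`. -/
def hF (x a b c : R) : R := x + gG (hH x a b) (hJ x a c) (hP x a b c)
def hU (x a b c : R) : R := hJ x a c + hP x a b c ^ 3
def hV (x a b c : R) : R := hH x a b + hP x a b c ^ 2
def hS (x a b c : R) : R :=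
  a + al (hP x a b c) * (2 * a ^ 2 * b - x * b ^ 2 - a * c)
    + be (hH x a b) (hP x a b c) * (c - a * b)

/-- The inverse parametrisation; `g` plays the role of `1 / f`. -/
def tP (g u v : R) : R := (u ^ 2 - v ^ 3) * g
def tJ (g u v : R) : R := u - tP g u v ^ 3
def tH (g u v : R) : R := v - tP g u v ^ 2
def tx (f g u v : R) : R := f - gG (tH g u v) (tJ g u v) (tP g u v)
def ta (f g u v s : R) : R := (a0 (tH g u v) (tJ g u v) (tP g u v) + tx f g u v * s) * g
def tb (f g u v s : R) : R :=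
  (b0 (tx f g u v) (tH g u v) (tJ g u v) (tP g u v) + 2 * a0 (tH g u v) (tJ g u v) (tP g u v) * s
    + tx f g u v * s ^ 2) * g ^ 2
def tc (f g u v s : R) : R :=
  (c0 (tx f g u v) (tH g u v) (tJ g u v) (tP g u v)
    + 3 * a0 (tH g u v) (tJ g u v) (tP g u v) ^ 2 * s
    + 3 * a0 (tH g u v) (tJ g u v) (tP g u v) * tx f g u v * s ^ 2
    + tx f g u v ^ 2 * s ^ 3) * g ^ 3

end defs

section maps
variable {R S Φ : Type*} [CommRing R] [CommRing S] [FunLike Φ R S] [RingHomClass Φ R S] (φ : Φ)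

theorem map_hH (x a b : R) : φ (hH x a b) = hH (φ x) (φ a) (φ b) := by simp [hH]
theorem map_hJ (x a c : R) : φ (hJ x a c) = hJ (φ x) (φ a) (φ c) := by simp [hJ]
theorem map_hP (x a b c : R) : φ (hP x a b c) = hP (φ x) (φ a) (φ b) (φ c) := by
  simp [hP, map_ofNat]
theorem map_al (P : R) : φ (al P) = al (φ P) := by simp [al, map_ofNat]
theorem map_be (H P : R) : φ (be H P) = be (φ H) (φ P) := by simp [be, map_ofNat]
theorem map_gG (H J P : R) : φ (gG H J P) = gG (φ H) (φ J) (φ P) := by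
  simp [gG, map_al, map_be]
theorem map_a0 (H J P : R) : φ (a0 H J P) = a0 (φ H) (φ J) (φ P) := by
  simp [a0, map_al, map_be]
theorem map_b0 (x H J P : R) : φ (b0 x H J P) = b0 (φ x) (φ H) (φ J) (φ P) := by
  simp [b0, map_al, map_be, map_gG, map_ofNat]
theorem map_c0 (x H J P : R) : φ (c0 x H J P) = c0 (φ x) (φ H) (φ J) (φ P) := by
  simp [c0, map_al, map_be, map_gG, map_ofNat]
theorem map_hF (x a b c : R) : φ (hF x a b c) = hF (φ x) (φ a) (φ b) (φ c) := by
  simp [hF, map_gG, map_hH, map_hJ, map_hP]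
theorem map_hU (x a b c : R) : φ (hU x a b c) = hU (φ x) (φ a) (φ b) (φ c) := by
  simp [hU, map_hJ, map_hP]
theorem map_hV (x a b c : R) : φ (hV x a b c) = hV (φ x) (φ a) (φ b) (φ c) := by
  simp [hV, map_hH, map_hP]
theorem map_hS (x a b c : R) : φ (hS x a b c) = hS (φ x) (φ a) (φ b) (φ c) := by
  simp [hS, map_hH, map_hP, map_al, map_be, map_ofNat]
theorem map_tP (g u v : R) : φ (tP g u v) = tP (φ g) (φ u) (φ v) := by simp [tP]
theorem map_tJ (g u v : R) : φ (tJ g u v) = tJ (φ g) (φ u) (φ v) := by simp [tJ, map_tP]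
theorem map_tH (g u v : R) : φ (tH g u v) = tH (φ g) (φ u) (φ v) := by simp [tH, map_tP]
theorem map_tx (f g u v : R) : φ (tx f g u v) = tx (φ f) (φ g) (φ u) (φ v) := by
  simp [tx, map_tP, map_tJ, map_tH, map_gG]
theorem map_ta (f g u v s : R) : φ (ta f g u v s) = ta (φ f) (φ g) (φ u) (φ v) (φ s) := by
  simp [ta, map_tP, map_tJ, map_tH, map_tx, map_a0]
theorem map_tb (f g u v s : R) : φ (tb f g u v s) = tb (φ f) (φ g) (φ u) (φ v) (φ s) := by
  simp [tb, map_tP, map_tJ, map_tH, map_tx, map_a0, map_b0, map_ofNat]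
theorem map_tc (f g u v s : R) : φ (tc f g u v s) = tc (φ f) (φ g) (φ u) (φ v) (φ s) := by
  simp [tc, map_tP, map_tJ, map_tH, map_tx, map_a0, map_c0, map_ofNat]

end maps

section ids
variable {R : Type*} [CommRing R]

theorem x_mul_hP (x a b c : R) : x * hP x a b c = hJ x a c ^ 2 - hH x a b ^ 3 := by
  simp only [hP, hJ, hH]; ring

theorem gG_mul (H J P : R) :
    gG H J P * P = (J + P ^ 3) ^ 2 - (H + P ^ 2) ^ 3 - (J ^ 2 - H ^ 3) := by
  simp only [gG, al, be]; ring

theorem a0_sq {x H J P : R} (h : x * P = J ^ 2 - H ^ 3) :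
    a0 H J P ^ 2 - H * (x + gG H J P) ^ 2 = x * b0 x H J P := by
  simp only [a0, b0, gG]
  generalize al P = A
  generalize be H P = B
  linear_combination (-(B ^ 2 - A ^ 2 * H)) * h

theorem a0_cube {x H J P : R} (h : x * P = J ^ 2 - H ^ 3) :
    a0 H J P ^ 3 - J * (x + gG H J P) ^ 3 = x * c0 x H J P := by
  simp only [a0, c0, gG]
  generalize al P = A
  generalize be H P = B
  linear_combination (-(-A ^ 3 * (J ^ 2 + H ^ 3) - 3 * A ^ 2 * B * H * J + B ^ 3 * J)) * h

theorem hF_mul_hP (x a b c : R) :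
    hF x a b c * hP x a b c = hU x a b c ^ 2 - hV x a b c ^ 3 := by
  simp only [hF, hU, hV]
  linear_combination x_mul_hP x a b c + gG_mul (hH x a b) (hJ x a c) (hP x a b c)

theorem hF_mul_a (x a b c : R) :
    hF x a b c * a = a0 (hH x a b) (hJ x a c) (hP x a b c) + x * hS x a b c := by
  simp only [hF, a0, hS, gG]
  generalize al (hP x a b c) = A
  generalize be (hH x a b) (hP x a b c) = B
  simp only [hH, hJ]
  ring

theorem hF_mul_b [IsDomain R] {x : R} (hx : x ≠ 0) (a b c : R) :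
    hF x a b c ^ 2 * b = b0 x (hH x a b) (hJ x a c) (hP x a b c)
      + 2 * a0 (hH x a b) (hJ x a c) (hP x a b c) * hS x a b c + x * hS x a b c ^ 2 := by
  apply mul_left_cancel₀ hx
  have h1 := hF_mul_a x a b c
  have h2 := a0_sq (x_mul_hP x a b c)
  have h3 : x * b = a ^ 2 - hH x a b := by simp only [hH]; ring
  change _ - _ * hF x a b c ^ 2 = _ at h2
  generalize hF x a b c = F at *
  generalize a0 (hH x a b) (hJ x a c) (hP x a b c) = A at *
  generalize b0 x (hH x a b) (hJ x a c) (hP x a b c) = B at *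
  generalize hS x a b c = S at *
  generalize hH x a b = H at *
  linear_combination F ^ 2 * h3 + h2 + (F * a + A + x * S) * h1

theorem hF_mul_c [IsDomain R] {x : R} (hx : x ≠ 0) (a b c : R) :
    hF x a b c ^ 3 * c = c0 x (hH x a b) (hJ x a c) (hP x a b c)
      + 3 * a0 (hH x a b) (hJ x a c) (hP x a b c) ^ 2 * hS x a b c
      + 3 * a0 (hH x a b) (hJ x a c) (hP x a b c) * x * hS x a b c ^ 2
      + x ^ 2 * hS x a b c ^ 3 := by
  apply mul_left_cancel₀ hx
  have h1 := hF_mul_a x a b c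
  have h2 := a0_cube (x_mul_hP x a b c)
  have h3 : x * c = a ^ 3 - hJ x a c := by simp only [hJ]; ring
  change _ - _ * hF x a b c ^ 3 = _ at h2
  generalize hF x a b c = F at *
  generalize a0 (hH x a b) (hJ x a c) (hP x a b c) = A at *
  generalize c0 x (hH x a b) (hJ x a c) (hP x a b c) = B at *
  generalize hS x a b c = S at *
  generalize hJ x a c = J at *
  linear_combination F ^ 3 * h3 + h2
    + ((F * a) ^ 2 + (F * a) * (A + x * S) + (A + x * S) ^ 2) * h1

/-! ### The inverse parametrisation inverts the forward one -/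

theorem tx_add (f g u v : R) : tx f g u v + gG (tH g u v) (tJ g u v) (tP g u v) = f := by
  simp only [tx]; ring

theorem tx_mul_tP {f g : R} (hfg : f * g = 1) (u v : R) :
    tx f g u v * tP g u v = tJ g u v ^ 2 - tH g u v ^ 3 := by
  have h1 := gG_mul (tH g u v) (tJ g u v) (tP g u v)
  have h2 : tJ g u v + tP g u v ^ 3 = u := by simp only [tJ]; ring
  have h3 : tH g u v + tP g u v ^ 2 = v := by simp only [tH]; ring
  rw [h2, h3] at h1
  have h4 : f * tP g u v = u ^ 2 - v ^ 3 := by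
    simp only [tP]; linear_combination (u ^ 2 - v ^ 3) * hfg
  simp only [tx]
  linear_combination h4 - h1

theorem hH_t {f g : R} (hfg : f * g = 1) (u v s : R) :
    hH (tx f g u v) (ta f g u v s) (tb f g u v s) = tH g u v := by
  have h2 := a0_sq (tx_mul_tP hfg u v)
  rw [tx_add] at h2
  simp only [hH, ta, tb]
  generalize a0 (tH g u v) (tJ g u v) (tP g u v) = A at *
  generalize b0 (tx f g u v) (tH g u v) (tJ g u v) (tP g u v) = B at *
  generalize tx f g u v = x at *
  generalize tH g u v = H at *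
  linear_combination g ^ 2 * h2 + H * (f * g + 1) * hfg

theorem hJ_t {f g : R} (hfg : f * g = 1) (u v s : R) :
    hJ (tx f g u v) (ta f g u v s) (tc f g u v s) = tJ g u v := by
  have h2 := a0_cube (tx_mul_tP hfg u v)
  rw [tx_add] at h2
  simp only [hJ, ta, tc]
  generalize a0 (tH g u v) (tJ g u v) (tP g u v) = A at *
  generalize c0 (tx f g u v) (tH g u v) (tJ g u v) (tP g u v) = B at *
  generalize tx f g u v = x at *
  generalize tJ g u v = J at *
  linear_combination g ^ 3 * h2 + J * ((f * g) ^ 2 + f * g + 1) * hfg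

theorem hP_t [IsDomain R] {f g : R} (hfg : f * g = 1) {u v : R} (hx : tx f g u v ≠ 0) (s : R) :
    hP (tx f g u v) (ta f g u v s) (tb f g u v s) (tc f g u v s) = tP g u v := by
  apply mul_left_cancel₀ hx
  rw [x_mul_hP, hH_t hfg, hJ_t hfg, tx_mul_tP hfg]

theorem hF_t [IsDomain R] {f g : R} (hfg : f * g = 1) {u v : R} (hx : tx f g u v ≠ 0) (s : R) :
    hF (tx f g u v) (ta f g u v s) (tb f g u v s) (tc f g u v s) = f := by
  rw [hF, hH_t hfg, hJ_t hfg, hP_t hfg hx, tx_add]

theorem hU_t [IsDomain R] {f g : R} (hfg : f * g = 1) {u v : R} (hx : tx f g u v ≠ 0) (s : R) :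
    hU (tx f g u v) (ta f g u v s) (tb f g u v s) (tc f g u v s) = u := by
  rw [hU, hJ_t hfg, hP_t hfg hx, tJ]; ring

theorem hV_t [IsDomain R] {f g : R} (hfg : f * g = 1) {u v : R} (hx : tx f g u v ≠ 0) (s : R) :
    hV (tx f g u v) (ta f g u v s) (tb f g u v s) (tc f g u v s) = v := by
  rw [hV, hH_t hfg, hP_t hfg hx, tH]; ring

theorem hS_t [IsDomain R] {f g : R} (hfg : f * g = 1) {u v : R} (hx : tx f g u v ≠ 0) (s : R) :
    hS (tx f g u v) (ta f g u v s) (tb f g u v s) (tc f g u v s) = s := by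
  apply mul_left_cancel₀ hx
  have h1 := hF_mul_a (tx f g u v) (ta f g u v s) (tb f g u v s) (tc f g u v s)
  rw [hF_t hfg hx, hH_t hfg, hJ_t hfg, hP_t hfg hx] at h1
  generalize hS (tx f g u v) (ta f g u v s) (tb f g u v s) (tc f g u v s) = S at *
  simp only [ta] at h1
  generalize a0 (tH g u v) (tJ g u v) (tP g u v) = A at *
  generalize tx f g u v = x at *
  linear_combination -h1 + (A + x * s) * hfg

theorem tx_zero (f g : R) : tx f g 0 0 = f := by
  simp [tx, tH, tJ, tP, gG, al, be]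

/-! ### The forward parametrisation inverts the inverse one -/

theorem tP_h {x a b c g : R} (hg : hF x a b c * g = 1) :
    tP g (hU x a b c) (hV x a b c) = hP x a b c := by
  rw [tP, ← hF_mul_hP]
  linear_combination hP x a b c * hg

theorem tJ_h {x a b c g : R} (hg : hF x a b c * g = 1) :
    tJ g (hU x a b c) (hV x a b c) = hJ x a c := by
  rw [tJ, tP_h hg, hU]; ring

theorem tH_h {x a b c g : R} (hg : hF x a b c * g = 1) :
    tH g (hU x a b c) (hV x a b c) = hH x a b := by
  rw [tH, tP_h hg, hV]; ring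

theorem tx_h {x a b c g : R} (hg : hF x a b c * g = 1) :
    tx (hF x a b c) g (hU x a b c) (hV x a b c) = x := by
  rw [tx, tP_h hg, tJ_h hg, tH_h hg, hF]; ring

/-! ### The critical point -/

theorem hH_pt : hH (2 : R) 1 1 = -1 := by simp only [hH]; ring
theorem hJ_pt : hJ (2 : R) 1 1 = -1 := by simp only [hJ]; ring
theorem hP_pt : hP (2 : R) 1 1 1 = 1 := by simp only [hP]; ring
theorem hF_pt : hF (2 : R) 1 1 1 = 0 := by
  simp only [hF, hH_pt, hJ_pt, hP_pt, gG, al, be]; ring
theorem hU_pt : hU (2 : R) 1 1 1 = 0 := by simp only [hU, hJ_pt, hP_pt]; ring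
theorem hV_pt : hV (2 : R) 1 1 1 = 0 := by simp only [hV, hH_pt, hP_pt]; ring

end ids

open MvPolynomial

/-- All partial derivatives of `F` vanish at a point with coordinates `(2,1,1,1)`. -/
theorem eval_pderiv_hF {σ : Type*} (p : σ → ℂ) {x a b c : MvPolynomial σ ℂ} (hx : eval p x = 2)
    (ha : eval p a = 1) (hb : eval p b = 1) (hc : eval p c = 1) (i : σ) :
    eval p (pderiv i (hF x a b c)) = 0 := by
  have h := congrArg (fun q => eval p (pderiv i q)) (hF_mul_hP x a b c)
  simp only [Derivation.leibniz, map_sub, Derivation.leibniz_pow, smul_eq_mul, map_add, map_mul,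
    map_hF, map_hP, hx, ha, hb, hc, hF_pt, hP_pt, nsmul_eq_mul, map_pow, map_hU, map_hV, hU_pt,
    hV_pt] at h
  simpa using h

theorem eval_hF {σ : Type*} (p : σ → ℂ) {x a b c : MvPolynomial σ ℂ} (hx : eval p x = 2)
    (ha : eval p a = 1) (hb : eval p b = 1) (hc : eval p c = 1) :
    eval p (hF x a b c) = 0 := by
  rw [map_hF, hx, ha, hb, hc, hF_pt]

/-- A polynomial with a critical point is not a coordinate. -/
theorem not_coordinate_of_critical {σ : Type*} [Fintype σ] (p : σ → ℂ) (g : MvPolynomial σ ℂ)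
    (hg : ∀ i, eval p (pderiv i g) = 0) (i₀ : σ) :
    ¬ ∃ τ : MvPolynomial σ ℂ ≃ₐ[ℂ] MvPolynomial σ ℂ, τ g = X i₀ := by
  classical
  rintro ⟨τ, hτ⟩
  have key : ∀ r : MvPolynomial σ ℂ, τ.symm (pderiv i₀ (τ r))
      = ∑ i, pderiv i r * τ.symm (pderiv i₀ (τ (X i))) := by
    intro r
    induction r using MvPolynomial.induction_on with
    | C a =>
      have : τ (C a) = C a := τ.commutes a
      simp [this]
    | add p q hp hq => simp [hp, hq, add_mul, Finset.sum_add_distrib]
    | mul_X p i hp =>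
      simp only [map_mul, Derivation.leibniz, smul_eq_mul, map_add, AlgEquiv.symm_apply_apply, hp,
        add_mul, Finset.sum_add_distrib, Finset.mul_sum, mul_assoc]
      congr 1
      rw [Finset.sum_eq_single i]
      · simp
      · intro j _ hj
        simp [pderiv_X_of_ne hj.symm]
      · simp
  have h := congrArg (eval p) (key g)
  simp [hτ, hg] at h

end Crest.Agent.R268.AS
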