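import Mathlib
import Crest.Agent.R268.ASAlg

/-!
# The fibre `F = 1` is an affine three-space
-/

namespace Crest.Agent.R268.AS

open MvPolynomial

/-- The polynomial `F` in four variables. -/
noncomputable def F4 : MvPolynomial (Fin 4) ℂ := hF (X 0) (X 1) (X 2) (X 3)

noncomputable def fibPhi : MvPolynomial (Fin 4) ℂ →ₐ[ℂ] MvPolynomial (Fin 3) ℂ :=
  aeval ![tx 1 1 (X 0) (X 1), ta 1 1 (X 0) (X 1) (X 2), tb 1 1 (X 0) (X 1) (X 2),
    tc 1 1 (X 0) (X 1) (X 2)]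

theorem fib_tx_ne : (tx 1 1 (X 0) (X 1) : MvPolynomial (Fin 3) ℂ) ≠ 0 := by
  intro h
  have h1 := congrArg (eval (fun _ => (0 : ℂ))) h
  rw [map_tx] at h1
  simp [tx_zero] at h1

theorem fibPhi_0 : fibPhi (X 0) = tx 1 1 (X 0) (X 1) := by simp [fibPhi]
theorem fibPhi_1 : fibPhi (X 1) = ta 1 1 (X 0) (X 1) (X 2) := by simp [fibPhi]
theorem fibPhi_2 : fibPhi (X 2) = tb 1 1 (X 0) (X 1) (X 2) := by simp [fibPhi]
theorem fibPhi_3 : fibPhi (X 3) = tc 1 1 (X 0) (X 1) (X 2) := by simp [fibPhi]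

theorem fibPhi_F : fibPhi (F4 - 1) = 0 := by
  rw [map_sub, F4, map_hF, fibPhi_0, fibPhi_1, fibPhi_2, fibPhi_3,
    hF_t (one_mul 1) fib_tx_ne, map_one, sub_self]

noncomputable def fibPhiBar :
    (MvPolynomial (Fin 4) ℂ ⧸ Ideal.span {F4 - 1}) →ₐ[ℂ] MvPolynomial (Fin 3) ℂ :=
  Ideal.Quotient.liftₐ _ fibPhi (by
    intro r hr
    obtain ⟨q, rfl⟩ := Ideal.mem_span_singleton'.1 hr
    rw [map_mul, fibPhi_F, mul_zero])

noncomputable def fibPsi :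
    MvPolynomial (Fin 3) ℂ →ₐ[ℂ] (MvPolynomial (Fin 4) ℂ ⧸ Ideal.span {F4 - 1}) :=
  (Ideal.Quotient.mkₐ ℂ _).comp
    (aeval ![hU (X 0) (X 1) (X 2) (X 3), hV (X 0) (X 1) (X 2) (X 3), hS (X 0) (X 1) (X 2) (X 3)])

theorem fibre_equiv : Nonempty
    ((MvPolynomial (Fin 4) ℂ ⧸ Ideal.span {F4 - 1}) ≃ₐ[ℂ] MvPolynomial (Fin 3) ℂ) := by
  set mk := Ideal.Quotient.mkₐ ℂ (Ideal.span {F4 - 1}) with hmk
  have hbar : ∀ r, fibPhiBar (mk r) = fibPhi r := fun r => rfl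
  have h0 : fibPsi (X 0) = mk (hU (X 0) (X 1) (X 2) (X 3)) := by simp [fibPsi, hmk]
  have h1 : fibPsi (X 1) = mk (hV (X 0) (X 1) (X 2) (X 3)) := by simp [fibPsi, hmk]
  have h2 : fibPsi (X 2) = mk (hS (X 0) (X 1) (X 2) (X 3)) := by simp [fibPsi, hmk]
  have hF1 : hF (mk (X 0)) (mk (X 1)) (mk (X 2)) (mk (X 3)) = 1 := by
    rw [← map_hF, ← map_one mk, ← sub_eq_zero, ← map_sub]
    exact Ideal.Quotient.eq_zero_iff_mem.2 (Ideal.mem_span_singleton_self _)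
  have hF1' : hF (mk (X 0)) (mk (X 1)) (mk (X 2)) (mk (X 3)) * 1 = 1 := by rw [mul_one, hF1]
  have hx : (X 0 : MvPolynomial (Fin 4) ℂ) ≠ 0 := X_ne_zero 0
  have ex : tx 1 1 (hU (mk (X 0)) (mk (X 1)) (mk (X 2)) (mk (X 3)))
      (hV (mk (X 0)) (mk (X 1)) (mk (X 2)) (mk (X 3))) = mk (X 0) := by
    have := tx_h hF1'
    rwa [hF1] at this
  refine ⟨AlgEquiv.ofAlgHom fibPhiBar fibPsi ?_ ?_⟩
  · apply MvPolynomial.algHom_ext
    intro i
    fin_cases i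
    · change fibPhiBar (fibPsi (X 0)) = X 0
      rw [h0, hbar, map_hU, fibPhi_0, fibPhi_1, fibPhi_2, fibPhi_3, hU_t (one_mul 1) fib_tx_ne]
    · change fibPhiBar (fibPsi (X 1)) = X 1
      rw [h1, hbar, map_hV, fibPhi_0, fibPhi_1, fibPhi_2, fibPhi_3, hV_t (one_mul 1) fib_tx_ne]
    · change fibPhiBar (fibPsi (X 2)) = X 2
      rw [h2, hbar, map_hS, fibPhi_0, fibPhi_1, fibPhi_2, fibPhi_3, hS_t (one_mul 1) fib_tx_ne]
  · apply Ideal.Quotient.algHom_ext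
    apply MvPolynomial.algHom_ext
    intro i
    fin_cases i
    · change fibPsi (fibPhiBar (mk (X 0))) = mk (X 0)
      rw [hbar, fibPhi_0, map_tx, map_one, h0, h1, map_hU, map_hV, ex]
    · change fibPsi (fibPhiBar (mk (X 1))) = mk (X 1)
      have e := congrArg mk (hF_mul_a (X 0 : MvPolynomial (Fin 4) ℂ) (X 1) (X 2) (X 3))
      simp only [map_mul, map_add, map_hF, map_a0, map_hH, map_hJ, map_hP, map_hS, hF1,
        one_mul] at e
      rw [hbar, fibPhi_1, map_ta, map_one, h0, h1, h2, map_hU, map_hV, map_hS, ta, ex,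
        tH_h hF1', tJ_h hF1', tP_h hF1', mul_one, ← e]
    · change fibPsi (fibPhiBar (mk (X 2))) = mk (X 2)
      have e := congrArg mk (hF_mul_b hx (X 1) (X 2) (X 3))
      simp only [map_mul, map_add, map_hF, map_a0, map_b0, map_hH, map_hJ, map_hP, map_hS, hF1,
        one_mul, map_pow, one_pow, map_ofNat] at e
      rw [hbar, fibPhi_2, map_tb, map_one, h0, h1, h2, map_hU, map_hV, map_hS, tb, ex,
        tH_h hF1', tJ_h hF1', tP_h hF1', one_pow, mul_one, ← e]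
    · change fibPsi (fibPhiBar (mk (X 3))) = mk (X 3)
      have e := congrArg mk (hF_mul_c hx (X 1) (X 2) (X 3))
      simp only [map_mul, map_add, map_hF, map_a0, map_c0, map_hH, map_hJ, map_hP, map_hS, hF1,
        one_mul, map_pow, one_pow, map_ofNat] at e
      rw [hbar, fibPhi_3, map_tc, map_one, h0, h1, h2, map_hU, map_hV, map_hS, tc, ex,
        tH_h hF1', tJ_h hF1', tP_h hF1', one_pow, mul_one, ← e]

theorem fibre_pderiv (i : Fin 4) : eval ![2, 1, 1, 1] (pderiv i (F4 - 1)) = 0 := by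
  rw [map_sub, pderiv_one, sub_zero, F4]
  exact eval_pderiv_hF _ (by simp) (by simp) (by simp) (by simp) i

theorem fibre_critical :
    ∃ p : Fin 4 → ℂ, ∀ i : Fin 4, eval p (pderiv i (F4 - 1)) = 0 := ⟨_, fibre_pderiv⟩

theorem fibre_not_coordinate :
    ¬ ∃ τ : MvPolynomial (Fin 4) ℂ ≃ₐ[ℂ] MvPolynomial (Fin 4) ℂ, τ (F4 - 1) = X 0 :=
  not_coordinate_of_critical _ _ fibre_pderiv 0

end Crest.Agent.R268.AS
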