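import Mathlib
import Crest.Agent.R268.ASFibre

/-!
# Coordinates `F, U, V, S` after inverting `F`
-/

namespace Crest.Agent.R268.CD

open MvPolynomial Crest.Agent.R268.AS

abbrev KK : Type := FractionRing (Polynomial ℂ)
abbrev AA (m : ℕ) : Type := MvPolynomial (Fin (4 + m)) ℂ
abbrev QQ (m : ℕ) : Type := MvPolynomial (Fin 3 ⊕ Fin m) (Polynomial ℂ)
abbrev LL (m : ℕ) : Type := MvPolynomial (Fin 3 ⊕ Fin m) KK

noncomputable def ff : KK := algebraMap (Polynomial ℂ) KK Polynomial.X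

theorem ff_ne : ff ≠ 0 := by
  rw [ff, Ne, IsFractionRing.to_map_eq_zero_iff]
  exact Polynomial.X_ne_zero

variable (m : ℕ)

noncomputable def xx (i : Fin 4) : AA m := X (Fin.castAdd m i)

noncomputable def FA : AA m := hF (xx m 0) (xx m 1) (xx m 2) (xx m 3)

theorem rename_F4 : rename (Fin.castAdd m) F4 = FA m := by
  rw [F4, map_hF]
  simp only [rename_X]
  rfl

noncomputable def chi0 : Fin 4 → MvPolynomial (Fin 3) KK :=
  ![tx (C ff) (C ff⁻¹) (X 0) (X 1), ta (C ff) (C ff⁻¹) (X 0) (X 1) (X 2),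
    tb (C ff) (C ff⁻¹) (X 0) (X 1) (X 2), tc (C ff) (C ff⁻¹) (X 0) (X 1) (X 2)]

noncomputable def chi : AA m →ₐ[ℂ] LL m :=
  aeval (Fin.addCases (motive := fun _ => LL m) (fun k => rename Sum.inl (chi0 k))
    (fun i => X (Sum.inr i)))

theorem chi_xx (k : Fin 4) : chi m (xx m k) = rename Sum.inl (chi0 k) := by
  simp [chi, xx]

theorem chi_extra (i : Fin m) : chi m (X (Fin.natAdd 4 i)) = X (Sum.inr i) := by
  simp [chi]

theorem chi_C (a : ℂ) : chi m (C a) = C (algebraMap ℂ KK a) := by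
  have : chi m (C a) = algebraMap ℂ (LL m) a := (chi m).commutes a
  rw [this]
  rfl

theorem chi_0 : chi m (xx m 0) = tx (C ff) (C ff⁻¹) (X (Sum.inl 0)) (X (Sum.inl 1)) := by
  rw [chi_xx]; simp [chi0, map_tx]
theorem chi_1 : chi m (xx m 1)
    = ta (C ff) (C ff⁻¹) (X (Sum.inl 0)) (X (Sum.inl 1)) (X (Sum.inl 2)) := by
  rw [chi_xx]; simp [chi0, map_ta]
theorem chi_2 : chi m (xx m 2)
    = tb (C ff) (C ff⁻¹) (X (Sum.inl 0)) (X (Sum.inl 1)) (X (Sum.inl 2)) := by
  rw [chi_xx]; simp [chi0, map_tb]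
theorem chi_3 : chi m (xx m 3)
    = tc (C ff) (C ff⁻¹) (X (Sum.inl 0)) (X (Sum.inl 1)) (X (Sum.inl 2)) := by
  rw [chi_xx]; simp [chi0, map_tc]

theorem fg_one : (C ff : LL m) * C ff⁻¹ = 1 := by
  rw [← map_mul, mul_inv_cancel₀ ff_ne, map_one]

theorem tx_ne : (tx (C ff) (C ff⁻¹) (X (Sum.inl 0)) (X (Sum.inl 1)) : LL m) ≠ 0 := by
  intro h
  have h1 := congrArg (eval (fun _ => (0 : KK))) h
  rw [map_tx] at h1
  simp only [eval_C, eval_X, tx_zero, map_zero] at h1
  exact ff_ne h1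

theorem chi_FA : chi m (FA m) = C ff := by
  rw [FA, map_hF, chi_0, chi_1, chi_2, chi_3, hF_t (fg_one m) (tx_ne m)]

noncomputable def gens : Fin 3 ⊕ Fin m → AA m :=
  Sum.elim ![hU (xx m 0) (xx m 1) (xx m 2) (xx m 3), hV (xx m 0) (xx m 1) (xx m 2) (xx m 3),
    hS (xx m 0) (xx m 1) (xx m 2) (xx m 3)] (fun i => X (Fin.natAdd 4 i))

theorem chi_gens (j : Fin 3 ⊕ Fin m) : chi m (gens m j) = X j := by
  rcases j with j | j
  · fin_cases j
    · change chi m (hU _ _ _ _) = X (Sum.inl 0)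
      rw [map_hU, chi_0, chi_1, chi_2, chi_3, hU_t (fg_one m) (tx_ne m)]
    · change chi m (hV _ _ _ _) = X (Sum.inl 1)
      rw [map_hV, chi_0, chi_1, chi_2, chi_3, hV_t (fg_one m) (tx_ne m)]
    · change chi m (hS _ _ _ _) = X (Sum.inl 2)
      rw [map_hS, chi_0, chi_1, chi_2, chi_3, hS_t (fg_one m) (tx_ne m)]
  · exact chi_extra m j

noncomputable def psi : QQ m →+* AA m :=
  eval₂Hom (Polynomial.aeval (FA m)).toRingHom (gens m)

theorem psi_C (r : Polynomial ℂ) : psi m (C r) = Polynomial.aeval (FA m) r := by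
  simp [psi]

theorem psi_X (j : Fin 3 ⊕ Fin m) : psi m (X j) = gens m j := by
  simp [psi]

theorem chi_psi (q : QQ m) :
    chi m (psi m q) = MvPolynomial.map (algebraMap (Polynomial ℂ) KK) q := by
  have h : (chi m).toRingHom.comp (psi m)
      = MvPolynomial.map (algebraMap (Polynomial ℂ) KK) := by
    apply MvPolynomial.ringHom_ext
    · intro r
      induction r using Polynomial.induction_on' with
      | add p q hp hq => simp only [map_add, hp, hq]
      | monomial n a =>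
        rw [← Polynomial.C_mul_X_pow_eq_monomial]
        simp only [map_mul, map_pow]
        congr 1
        · change chi m (psi m _) = _
          rw [psi_C, Polynomial.aeval_C, map_C]
          exact chi_C m a
        · congr 1
          change chi m (psi m _) = _
          rw [psi_C, Polynomial.aeval_X, chi_FA, map_C]
          rfl
    · intro j
      change chi m (psi m _) = _
      rw [psi_X, chi_gens, map_X]
  exact congrArg (fun φ : QQ m →+* LL m => φ q) h

/-- Elements that land in the range of `psi` after multiplication by a power of `F`. -/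
def sat : Subring (AA m) where
  carrier := {r | ∃ (k : ℕ) (q : QQ m), FA m ^ k * r = psi m q}
  mul_mem' := by
    rintro r s ⟨k, q, h⟩ ⟨l, q', h'⟩
    exact ⟨k + l, q * q', by rw [map_mul, ← h, ← h']; ring⟩
  one_mem' := ⟨0, 1, by simp⟩
  add_mem' := by
    rintro r s ⟨k, q, h⟩ ⟨l, q', h'⟩
    refine ⟨k + l, C Polynomial.X ^ l * q + C Polynomial.X ^ k * q', ?_⟩
    simp only [map_add, map_mul, map_pow, psi_C, Polynomial.aeval_X, ← h, ← h']
    ring
  zero_mem' := ⟨0, 0, by simp⟩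
  neg_mem' := by
    rintro r ⟨k, q, h⟩
    exact ⟨k, -q, by rw [map_neg, ← h]; ring⟩

theorem sat_of_mul {r : AA m} {l : ℕ} (h : FA m ^ l * r ∈ sat m) : r ∈ sat m := by
  obtain ⟨k, q, h⟩ := h
  exact ⟨k + l, q, by rw [← h]; ring⟩

theorem psi_mem (q : QQ m) : psi m q ∈ sat m := ⟨0, q, by simp⟩

theorem mem_sat (r : AA m) : r ∈ sat m := by
  have hF : FA m ∈ sat m := by
    have := psi_mem m (C Polynomial.X)
    rwa [psi_C, Polynomial.aeval_X] at this
  have hg : ∀ j, gens m j ∈ sat m := fun j => psi_X m j ▸ psi_mem m (X j)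
  have hU' : hU (xx m 0) (xx m 1) (xx m 2) (xx m 3) ∈ sat m := hg (Sum.inl 0)
  have hV' : hV (xx m 0) (xx m 1) (xx m 2) (xx m 3) ∈ sat m := hg (Sum.inl 1)
  have hS' : hS (xx m 0) (xx m 1) (xx m 2) (xx m 3) ∈ sat m := hg (Sum.inl 2)
  have hP' : hP (xx m 0) (xx m 1) (xx m 2) (xx m 3) ∈ sat m := by
    apply sat_of_mul m (l := 1)
    rw [pow_one, FA, hF_mul_hP]
    exact sub_mem (pow_mem hU' 2) (pow_mem hV' 3)
  have hJ' : hJ (xx m 0) (xx m 1) (xx m 3) ∈ sat m := by
    have := sub_mem hU' (pow_mem hP' 3)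
    rwa [hU, add_sub_cancel_right] at this
  have hH' : hH (xx m 0) (xx m 1) (xx m 2) ∈ sat m := by
    have := sub_mem hV' (pow_mem hP' 2)
    rwa [hV, add_sub_cancel_right] at this
  have hG' : gG (hH (xx m 0) (xx m 1) (xx m 2)) (hJ (xx m 0) (xx m 1) (xx m 3))
      (hP (xx m 0) (xx m 1) (xx m 2) (xx m 3)) ∈ sat m := by
    have := map_gG (sat m).subtype ⟨_, hH'⟩ ⟨_, hJ'⟩ ⟨_, hP'⟩
    exact this ▸ Subtype.coe_prop _
  have h0 : xx m 0 ∈ sat m := by
    have := sub_mem hF hG'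
    rwa [FA, AS.hF, add_sub_cancel_right] at this
  have ha0 : a0 (hH (xx m 0) (xx m 1) (xx m 2)) (hJ (xx m 0) (xx m 1) (xx m 3))
      (hP (xx m 0) (xx m 1) (xx m 2) (xx m 3)) ∈ sat m := by
    have := map_a0 (sat m).subtype ⟨_, hH'⟩ ⟨_, hJ'⟩ ⟨_, hP'⟩
    exact this ▸ Subtype.coe_prop _
  have hb0 : b0 (xx m 0) (hH (xx m 0) (xx m 1) (xx m 2)) (hJ (xx m 0) (xx m 1) (xx m 3))
      (hP (xx m 0) (xx m 1) (xx m 2) (xx m 3)) ∈ sat m := by
    have := map_b0 (sat m).subtype ⟨_, h0⟩ ⟨_, hH'⟩ ⟨_, hJ'⟩ ⟨_, hP'⟩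
    exact this ▸ Subtype.coe_prop _
  have hc0 : c0 (xx m 0) (hH (xx m 0) (xx m 1) (xx m 2)) (hJ (xx m 0) (xx m 1) (xx m 3))
      (hP (xx m 0) (xx m 1) (xx m 2) (xx m 3)) ∈ sat m := by
    have := map_c0 (sat m).subtype ⟨_, h0⟩ ⟨_, hH'⟩ ⟨_, hJ'⟩ ⟨_, hP'⟩
    exact this ▸ Subtype.coe_prop _
  have hx : xx m 0 ≠ 0 := X_ne_zero _
  have h2' : (2 : AA m) ∈ sat m := ofNat_mem _ 2
  have h3' : (3 : AA m) ∈ sat m := ofNat_mem _ 3
  have h1 : xx m 1 ∈ sat m := by
    apply sat_of_mul m (l := 1)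
    rw [pow_one, FA, hF_mul_a]
    exact add_mem ha0 (mul_mem h0 hS')
  have h2 : xx m 2 ∈ sat m := by
    apply sat_of_mul m (l := 2)
    rw [FA, hF_mul_b hx]
    exact add_mem (add_mem hb0 (mul_mem (mul_mem h2' ha0) hS')) (mul_mem h0 (pow_mem hS' 2))
  have h3 : xx m 3 ∈ sat m := by
    apply sat_of_mul m (l := 3)
    rw [FA, hF_mul_c hx]
    exact add_mem (add_mem (add_mem hc0 (mul_mem (mul_mem h3' (pow_mem ha0 2)) hS'))
      (mul_mem (mul_mem (mul_mem h3' ha0) h0) (pow_mem hS' 2)))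
      (mul_mem (pow_mem h0 2) (pow_mem hS' 3))
  induction r using MvPolynomial.induction_on with
  | C a =>
    have := psi_mem m (C (Polynomial.C a))
    rwa [psi_C, Polynomial.aeval_C] at this
  | add p q hp hq => exact add_mem hp hq
  | mul_X p i hp =>
    refine mul_mem hp ?_
    induction i using Fin.addCases with
    | left k =>
      fin_cases k
      · exact h0
      · exact h1
      · exact h2
      · exact h3
    | right k => exact hg (Sum.inr k)

theorem FA_ne : FA m ≠ 0 := by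
  intro h
  have := chi_FA m
  rw [h, map_zero] at this
  exact ff_ne (C_eq_zero.1 this.symm)

theorem map_inj : Function.Injective
    (MvPolynomial.map (σ := Fin 3 ⊕ Fin m) (algebraMap (Polynomial ℂ) KK)) :=
  MvPolynomial.map_injective _ (IsFractionRing.injective _ _)

theorem chi_injective : Function.Injective (chi m) := by
  rw [injective_iff_map_eq_zero]
  intro r hr
  obtain ⟨k, q, h⟩ := mem_sat m r
  have h1 := congrArg (chi m) h
  rw [map_mul, hr, mul_zero, chi_psi] at h1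
  have h2 : q = 0 := map_inj m (by rw [← h1, map_zero])
  rw [h2, map_zero] at h
  exact (mul_eq_zero.1 h).resolve_left (pow_ne_zero _ (FA_ne m))

theorem exists_uniform : ∃ N : ℕ, ∀ i : Fin (4 + m), ∃ q : QQ m, FA m ^ N * X i = psi m q := by
  choose k q hq using fun i : Fin (4 + m) => mem_sat m (X i)
  refine ⟨Finset.univ.sup k, fun i => ?_⟩
  obtain ⟨d, hd⟩ := Nat.exists_eq_add_of_le (Finset.le_sup (f := k) (Finset.mem_univ i))
  refine ⟨C Polynomial.X ^ d * q i, ?_⟩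
  rw [hd, map_mul, map_pow, psi_C, Polynomial.aeval_X, ← hq]
  ring

end Crest.Agent.R268.CD
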