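import Mathlib
import Crest.Agent.R268.CDSetup

/-!
# The commuting locally nilpotent derivations
-/

namespace Crest.Agent.R268.CD

open MvPolynomial Crest.Agent.R268.AS

section general
variable {σ R : Type*} [CommRing R]

theorem pderiv_comm' (i j : σ) (p : MvPolynomial σ R) :
    pderiv i (pderiv j p) = pderiv j (pderiv i p) := by
  classical
  induction p using MvPolynomial.induction_on with
  | C a => simp
  | add p q hp hq => simp only [map_add, hp, hq]
  | mul_X p k hp =>
    have h : ∀ a b : σ, pderiv a (pderiv b (X k : MvPolynomial σ R)) = 0 := by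
      intro a b
      rw [pderiv_X, Pi.single_apply]
      split_ifs
      · exact pderiv_one
      · exact map_zero _
    simp only [Derivation.leibniz, map_add, smul_eq_mul, h, hp]
    ring

theorem iterate_pderiv_monomial (j : σ) (n : ℕ) :
    ∀ (s : σ →₀ ℕ) (a : R), s j ≤ n → (pderiv j)^[n + 1] (monomial s a) = 0 := by
  induction n with
  | zero =>
    intro s a h
    have h0 : s j = 0 := Nat.le_zero.1 h
    simp [pderiv_monomial, h0]
  | succ n ih =>
    intro s a h
    rw [Function.iterate_succ_apply, pderiv_monomial]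
    apply ih
    simp only [Finsupp.coe_tsub, Pi.sub_apply, Finsupp.single_eq_same]
    omega

theorem iterate_add' (j : σ) (k : ℕ) (p q : MvPolynomial σ R) :
    (pderiv j)^[k] (p + q) = (pderiv j)^[k] p + (pderiv j)^[k] q := by
  induction k with
  | zero => rfl
  | succ k ih => simp only [Function.iterate_succ_apply', ih, map_add]

theorem iterate_zero_mono (j : σ) {k l : ℕ} (h : k ≤ l) {p : MvPolynomial σ R}
    (hp : (pderiv j)^[k] p = 0) : (pderiv j)^[l] p = 0 := by
  induction l, h using Nat.le_induction with
  | base => exact hp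
  | succ l _ ih => rw [Function.iterate_succ_apply', ih, map_zero]

theorem exists_iterate_pderiv (j : σ) (p : MvPolynomial σ R) : ∃ k, (pderiv j)^[k] p = 0 := by
  induction p using MvPolynomial.induction_on' with
  | monomial s a => exact ⟨s j + 1, iterate_pderiv_monomial j _ s a le_rfl⟩
  | add p q hp hq =>
    obtain ⟨k, hk⟩ := hp
    obtain ⟨l, hl⟩ := hq
    exact ⟨max k l, by rw [iterate_add', iterate_zero_mono j (le_max_left _ _) hk,
      iterate_zero_mono j (le_max_right _ _) hl, add_zero]⟩

theorem eq_C_of_pderiv [IsDomain R] [CharZero R] (p : MvPolynomial σ R)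
    (h : ∀ j, pderiv j p = 0) : p = C (coeff 0 p) := by
  classical
  ext s
  rw [coeff_C]
  split_ifs with hs
  · rw [hs]
  · obtain ⟨j, hj⟩ : ∃ j, s j ≠ 0 := by
      by_contra hcon
      push Not at hcon
      exact hs (Finsupp.ext fun j => (hcon j).symm)
    have h1 := coeff_pderiv (i := j) p (s - Finsupp.single j 1)
    rw [h j, coeff_zero] at h1
    have h2 : s - Finsupp.single j 1 + Finsupp.single j 1 = s := by
      apply tsub_add_cancel_of_le
      rw [Finsupp.single_le_iff]
      omega
    rw [h2] at h1
    refine (mul_eq_zero.1 h1.symm).resolve_right ?_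
    exact Nat.cast_add_one_ne_zero _

theorem pderiv_inr_rename {τ : Type*} (i : τ) (p : MvPolynomial σ R) :
    pderiv (Sum.inr i) (rename (Sum.inl : σ → σ ⊕ τ) p) = 0 := by
  induction p using MvPolynomial.induction_on with
  | C a => simp
  | add p q hp hq => simp only [map_add, hp, hq, add_zero]
  | mul_X p k hp =>
    rw [map_mul, Derivation.leibniz, hp, rename_X, pderiv_X_of_ne (by simp)]
    simp

end general

variable (m : ℕ)

theorem chi_derivation (D : Derivation ℂ (AA m) (AA m)) (c : KK) (j : Fin 3 ⊕ Fin m)
    (h : ∀ i, chi m (D (X i)) = C c * pderiv j (chi m (X i))) (r : AA m) :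
    chi m (D r) = C c * pderiv j (chi m r) := by
  induction r using MvPolynomial.induction_on with
  | C a => rw [derivation_C, map_zero, chi_C, pderiv_C, mul_zero]
  | add p q hp hq => simp only [map_add, hp, hq, mul_add]
  | mul_X p k hp =>
    simp only [Derivation.leibniz, smul_eq_mul, map_add, map_mul, hp, h]
    ring

theorem exists_derivations : ∃ (D : Fin 3 ⊕ Fin m → Derivation ℂ (AA m) (AA m))
    (c : Fin 3 ⊕ Fin m → KK), (∀ j, c j ≠ 0) ∧
    (∀ i, D (Sum.inr i) = pderiv (Fin.natAdd 4 i)) ∧
    ∀ j r, chi m (D j r) = C (c j) * pderiv j (chi m r) := by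
  obtain ⟨N, hN⟩ := exists_uniform m
  choose q hq using hN
  refine ⟨Sum.elim (fun j => mkDerivation ℂ fun i => psi m (pderiv (Sum.inl j) (q i)))
    (fun i => pderiv (Fin.natAdd 4 i)), Sum.elim (fun _ => ff ^ N) (fun _ => 1), ?_,
    fun _ => rfl, ?_⟩
  · rintro (j | j)
    · exact pow_ne_zero _ ff_ne
    · exact one_ne_zero
  · rintro (j | j)
    · apply chi_derivation
      intro i
      simp only [Sum.elim_inl]
      rw [mkDerivation_X, chi_psi, ← pderiv_map, ← chi_psi, ← hq, map_mul, map_pow, chi_FA,
        ← map_pow, pderiv_C_mul]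
    · apply chi_derivation
      intro i
      simp only [Sum.elim_inr, map_one, one_mul]
      induction i using Fin.addCases with
      | left k =>
        have hne : Fin.castAdd m k ≠ Fin.natAdd 4 j := by
          intro h
          have := congrArg Fin.val h
          simp at this
          omega
        rw [pderiv_X_of_ne hne, map_zero]
        exact ((congrArg _ (chi_xx m k)).trans (pderiv_inr_rename j _)).symm
      | right k =>
        rw [chi_extra]
        by_cases hk : k = j
        · subst hk
          simp
        · rw [pderiv_X_of_ne (fun h => hk (Fin.natAdd_injective _ _ h)),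
            pderiv_X_of_ne (fun h => hk (Sum.inr_injective h)), map_zero]

noncomputable def pt : Fin (4 + m) → ℂ :=
  Fin.addCases (motive := fun _ => ℂ) ![2, 1, 1, 1] (fun _ => 0)

theorem eval_pt (k : Fin 4) : eval (pt m) (xx m k) = ![2, 1, 1, 1] k := by
  simp [xx, pt]

theorem eval_pt_FA : eval (pt m) (FA m) = 0 :=
  eval_hF _ (eval_pt m 0) (eval_pt m 1) (eval_pt m 2) (eval_pt m 3)

theorem eval_pt_pderiv_FA (i) : eval (pt m) (pderiv i (FA m)) = 0 :=
  eval_pderiv_hF _ (eval_pt m 0) (eval_pt m 1) (eval_pt m 2) (eval_pt m 3) i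

theorem mem_adjoin_of_mul (p : AA m) (k : ℕ) : ∀ r : Polynomial ℂ,
    FA m ^ k * p = Polynomial.aeval (FA m) r → p ∈ Algebra.adjoin ℂ {FA m} := by
  induction k with
  | zero =>
    intro r h
    rw [pow_zero, one_mul] at h
    rw [h]
    exact Polynomial.aeval_mem_adjoin_singleton ℂ _
  | succ k ih =>
    intro r h
    have h0 : r.coeff 0 = 0 := by
      have h1 := congrArg (aeval (pt m)) h
      have h2 : aeval (pt m) (FA m) = 0 := eval_pt_FA m
      rw [← Polynomial.aeval_algHom_apply, map_mul, map_pow, h2, Polynomial.aeval_def,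
        Polynomial.eval₂_at_zero] at h1
      simpa using h1.symm
    obtain ⟨r', rfl⟩ := Polynomial.X_dvd_iff.2 h0
    apply ih r'
    apply mul_left_cancel₀ (FA_ne m)
    rw [map_mul, Polynomial.aeval_X] at h
    rw [← h]
    ring

theorem critical_of_mem {g : AA m} (hg : g ∈ Algebra.adjoin ℂ {FA m}) (i) :
    eval (pt m) (pderiv i g) = 0 := by
  induction hg using Algebra.adjoin_induction with
  | mem x hx => rw [Set.mem_singleton_iff.1 hx]; exact eval_pt_pderiv_FA m i
  | algebraMap a => rw [Derivation.map_algebraMap, map_zero]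
  | add x y _ _ hx hy => rw [map_add, map_add, hx, hy, add_zero]
  | mul x y _ _ hx hy => simp [Derivation.leibniz, hx, hy]

theorem main : ∃ D : Fin 3 ⊕ Fin m → Derivation ℂ (AA m) (AA m),
    (∀ i : Fin m, D (Sum.inr i) = pderiv (Fin.natAdd 4 i)) ∧
    (∀ a b, ∀ p : AA m, D a (D b p) = D b (D a p)) ∧
    (∀ a, ∀ p : AA m, ∃ k : ℕ, (D a)^[k] p = 0) ∧
    LinearIndependent (AA m) D ∧
    (∀ p : AA m, (∀ a, D a p = 0) ↔ p ∈ Algebra.adjoin ℂ {rename (Fin.castAdd m) F4}) ∧
    ∀ g : AA m, (∀ a, D a g = 0) → ¬ ∃ τ : AA m ≃ₐ[ℂ] AA m, τ g = X (Fin.castAdd m 0) := by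
  classical
  obtain ⟨D, c, hc, hD, key⟩ := exists_derivations m
  have hker : ∀ p : AA m, (∀ a, D a p = 0) ↔ p ∈ Algebra.adjoin ℂ {FA m} := by
    intro p
    constructor
    · intro h
      obtain ⟨k, q, hq⟩ := mem_sat m p
      have h1 : ∀ j, pderiv j q = 0 := by
        intro j
        have h2 := key j p
        rw [h j, map_zero] at h2
        have h3 : pderiv j (chi m p) = 0 :=
          (mul_eq_zero.1 h2.symm).resolve_left (fun h4 => hc j (C_eq_zero.1 h4))
        apply map_inj m
        rw [← pderiv_map, ← chi_psi, ← hq, map_mul, map_pow, chi_FA, ← map_pow, pderiv_C_mul, h3,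
          mul_zero, map_zero]
      rw [eq_C_of_pderiv q h1, psi_C] at hq
      exact mem_adjoin_of_mul m p k _ hq
    · intro h a
      induction h using Algebra.adjoin_induction with
      | mem x hx =>
        rw [Set.mem_singleton_iff.1 hx]
        apply chi_injective m
        rw [key, chi_FA, pderiv_C, mul_zero, map_zero]
      | algebraMap a => rw [Derivation.map_algebraMap]
      | add x y _ _ hx hy => rw [map_add, hx, hy, add_zero]
      | mul x y _ _ hx hy => simp [Derivation.leibniz, hx, hy]
  refine ⟨D, hD, fun a b p => ?_, fun a p => ?_, ?_, ?_, fun g hg => ?_⟩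
  · apply chi_injective m
    simp only [key, pderiv_C_mul]
    rw [pderiv_comm']
    ring
  · obtain ⟨k, hk⟩ := exists_iterate_pderiv a (chi m p)
    refine ⟨k, chi_injective m ?_⟩
    have h : ∀ l, chi m ((D a)^[l] p) = C (c a ^ l) * (pderiv a)^[l] (chi m p) := by
      intro l
      induction l with
      | zero => simp
      | succ l ih =>
        rw [Function.iterate_succ_apply', Function.iterate_succ_apply', key, ih, pderiv_C_mul,
          pow_succ, map_mul]
        ring
    rw [h, hk, mul_zero, map_zero]
  · rw [Fintype.linearIndependent_iff]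
    intro g hg b
    have h1 := congrArg (fun E : Derivation ℂ (AA m) (AA m) => chi m (E (gens m b))) hg
    simp only [Derivation.coe_zero, Pi.zero_apply, map_zero] at h1
    have h2 : (∑ i, g i • D i) (gens m b) = ∑ i, g i * D i (gens m b) := by
      have := map_sum (Derivation.coeFnAddMonoidHom (R := ℂ) (A := AA m) (M := AA m))
        (fun i => g i • D i) Finset.univ
      have h3 := congrFun this (gens m b)
      simpa [Derivation.coeFnAddMonoidHom] using h3
    rw [h2, map_sum, Finset.sum_eq_single b] at h1
    · rw [map_mul, key, chi_gens, pderiv_X_self, mul_one] at h1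
      have h3 : chi m (g b) = 0 :=
        (mul_eq_zero.1 h1).resolve_right (fun h4 => hc b (C_eq_zero.1 h4))
      exact chi_injective m (by rw [h3, map_zero])
    · intro j _ hj
      rw [map_mul, key, chi_gens, pderiv_X_of_ne hj.symm, mul_zero, mul_zero]
    · simp
  · rw [rename_F4]
    exact hker
  · exact not_coordinate_of_critical (pt m) g (critical_of_mem m ((hker g).1 hg)) _

end Crest.Agent.R268.CD
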