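import Crest.Agent.R268.LND

set_option autoImplicit false

/-! Leading-term argument: a lattice whose first centre is the surface `gg = 0` is not a
polynomial ring over `ℂ[f]`. -/

namespace Crest.Agent.R268

open MvPolynomial

/-- set the first variable to zero -/
noncomputable def eps : P4 →ₐ[ℂ] P3 := aeval (Fin.cases 0 X)

/-- inclusion of the last three variables -/
noncomputable def incl : P3 →ₐ[ℂ] P4 := rename Fin.succ

@[simp] lemma eps_X0 : eps (X 0) = 0 := by simp [eps]
@[simp] lemma eps_Xs (i : Fin 3) : eps (X i.succ) = X i := by simp [eps]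
@[simp] lemma incl_X (i : Fin 3) : incl (X i) = X i.succ := by simp [incl]

lemma eps_incl (p : P3) : eps (incl p) = p := by
  have : eps.comp incl = AlgHom.id ℂ P3 := by
    ext i : 1; simp
  exact DFunLike.congr_fun this p

lemma X0_dvd_sub (p : P4) : X 0 ∣ p - incl (eps p) := by
  induction p using MvPolynomial.induction_on with
  | C a => simp
  | add p q hp hq =>
    have := dvd_add hp hq
    simp only [map_add]
    convert this using 1; ring
  | mul_X p i hp =>
    refine Fin.cases ?_ (fun j => ?_) i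
    · simp
    · simp only [map_mul, eps_Xs, incl_X]
      have := dvd_mul_of_dvd_left hp (X j.succ)
      convert this using 1; ring

lemma eps_pderiv (i : Fin 3) (p : P4) : eps (pderiv i.succ p) = pderiv i (eps p) := by
  classical
  induction p using MvPolynomial.induction_on with
  | C a => simp
  | add p q hp hq => simp [hp, hq]
  | mul_X p j hp =>
    refine Fin.cases ?_ (fun j => ?_) j
    · simp [Derivation.leibniz, pderiv_X_of_ne (Fin.succ_ne_zero i).symm]
    · by_cases h : j = i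
      · subst h; simp [Derivation.leibniz, hp]
      · have h' : j.succ ≠ i.succ := fun e => h (Fin.succ_injective _ e)
        simp [Derivation.leibniz, hp, pderiv_X_of_ne h, pderiv_X_of_ne h']

noncomputable def dy : Fin 3 → P4 → P4 := fun i p => pderiv i.succ p

lemma eps_Jac (p q r : P4) : eps (Jac dy p q r) = Jac dz (eps p) (eps q) (eps r) := by
  simp only [Jac, dy, dz, map_add, map_sub, map_mul, eps_pderiv]

lemma pd_X0 (i : Fin 3) : pderiv i.succ (X 0 : P4) = 0 :=
  pderiv_X_of_ne (Fin.succ_ne_zero i).symm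

lemma pd_X0_pow (i : Fin 3) (n : ℕ) : pderiv i.succ (X 0 ^ n : P4) = 0 := by
  simp [Derivation.leibniz_pow]

lemma pd_mul_X0_pow (i : Fin 3) (n : ℕ) (p : P4) :
    pderiv i.succ (X 0 ^ n * p) = X 0 ^ n * pderiv i.succ p := by
  rw [Derivation.leibniz, pd_X0_pow]; simp

lemma pd_Jac (j : Fin 3) (a b c : P4) : pderiv j.succ (Jac dy a b c) =
    Jac dy (pderiv j.succ a) b c + Jac dy a (pderiv j.succ b) c + Jac dy a b (pderiv j.succ c) := by
  simp only [Jac, dy, map_add, map_sub, Derivation.leibniz, smul_eq_mul, pderiv_comm' j.succ]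
  ring

lemma Jac_chain (ψ : P4 →ₐ[ℂ] P4) (h0 : ψ (X 0) = X 0) (p q r : P4) :
    Jac dy (ψ p) (ψ q) (ψ r) =
      ψ (Jac dy p q r) * Jac dy (ψ (X 1)) (ψ (X 2)) (ψ (X 3)) := by
  have hc : ∀ (i : Fin 3) (p : P4), pderiv i.succ (ψ p) =
      ψ (pderiv 1 p) * pderiv i.succ (ψ (X 1)) + ψ (pderiv 2 p) * pderiv i.succ (ψ (X 2))
        + ψ (pderiv 3 p) * pderiv i.succ (ψ (X 3)) := by
    intro i p
    rw [chain ψ (pderiv i.succ) p, Fin.sum_univ_four, h0, pd_X0]
    ring
  have e0 : (0 : Fin 3).succ = 1 := rfl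
  have e1 : (1 : Fin 3).succ = 2 := rfl
  have e2 : (2 : Fin 3).succ = 3 := rfl
  simp only [Jac, dy, map_add, map_sub, map_mul]
  rw [hc 0 p, hc 1 p, hc 2 p, hc 0 q, hc 1 q, hc 2 q, hc 0 r, hc 1 r, hc 2 r]
  simp only [e0, e1, e2]
  ring

lemma normalize_family (q : Fin 3 → P4) (hq : ∃ k, q k ≠ 0) :
    ∃ (m : ℕ) (q' : Fin 3 → P4), (∀ k, q k = X 0 ^ m * q' k) ∧ ∃ k, ¬ (X 0 : P4) ∣ q' k := by
  classical
  obtain ⟨k0, hk0⟩ := hq
  obtain ⟨n, a, hna, hqa⟩ := WfDvdMonoid.max_power_factor hk0 (X_prime (i := (0 : Fin 4))).irreducible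
  have hex : ∃ m : ℕ, ∃ k, ¬ (X 0 : P4) ^ (m + 1) ∣ q k := by
    refine ⟨n, k0, fun h => hna ?_⟩
    rw [hqa, pow_succ] at h
    exact (mul_dvd_mul_iff_left (pow_ne_zero n (X_ne_zero _))).mp h
  have hall : ∀ k, (X 0 : P4) ^ (Nat.find hex) ∣ q k := by
    intro k
    rcases h : Nat.find hex with _ | m
    · simp
    · have := Nat.find_min hex (m := m) (by omega)
      push Not at this
      exact this k
  choose q' hq' using hall
  obtain ⟨k, hk⟩ := Nat.find_spec hex
  refine ⟨Nat.find hex, q', hq', k, fun h => hk ?_⟩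
  rw [hq' k, pow_succ]
  exact mul_dvd_mul_left _ h

theorem descent (ψ : P4 →ₐ[ℂ] P4) (hinj : Function.Injective ψ) (h0 : ψ (X 0) = X 0)
    (hloc : ∀ b : P4, ∃ (n : ℕ) (p : P4), X 0 ^ n * b = ψ p)
    (hker : ∀ p : P3, X 0 ∣ ψ (incl p) → gg ∣ p)
    (hg : X 0 ∣ ψ (incl gg)) : False := by
  classical
  have hX0 : (X 0 : P4) ≠ 0 := X_ne_zero _
  have hgg : gg ≠ 0 := by
    intro h
    have := congrArg (eval (fun i : Fin 3 => if i = 1 then (1 : ℂ) else 0)) h
    simp [gg] at this
  -- step 1: some variable is not in the range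
  obtain ⟨i, hi⟩ : ∃ i : Fin 3, ∀ p, ψ p ≠ X i.succ := by
    by_contra hcon
    push Not at hcon
    have hsurj : ∀ b, ∃ p, ψ p = b := by
      intro b
      induction b using MvPolynomial.induction_on with
      | C a => exact ⟨C a, by simp⟩
      | add p q hp hq =>
        obtain ⟨p', rfl⟩ := hp; obtain ⟨q', rfl⟩ := hq
        exact ⟨p' + q', by simp⟩
      | mul_X p j hp =>
        obtain ⟨p', rfl⟩ := hp
        refine Fin.cases ?_ (fun j => ?_) j
        · exact ⟨p' * X 0, by simp [h0]⟩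
        · obtain ⟨r, hr⟩ := hcon j
          exact ⟨p' * r, by simp [hr]⟩
    obtain ⟨b, hb⟩ := hg
    obtain ⟨p, rfl⟩ := hsurj b
    have : incl gg = X 0 * p := hinj (by rw [hb, map_mul, h0])
    have := congrArg eps this
    rw [eps_incl, map_mul, eps_X0, zero_mul] at this
    exact hgg this
  -- step 2: its leading coefficient
  obtain ⟨n, h, hn0, hh, hndvd⟩ : ∃ (n : ℕ) (h : P4), n ≠ 0 ∧ X 0 ^ n * X i.succ = ψ h ∧
      ¬ (X 0 : P4) ∣ h := by
    have hex := hloc (X i.succ)
    obtain ⟨h, hh⟩ := Nat.find_spec hex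
    have hn0 : Nat.find hex ≠ 0 := by
      intro e
      rw [e] at hh
      exact hi h (by simpa using hh.symm)
    refine ⟨_, h, hn0, hh, ?_⟩
    rintro ⟨h', rfl⟩
    obtain ⟨m, hm⟩ := Nat.exists_eq_succ_of_ne_zero hn0
    refine Nat.find_min hex (m := m) (by omega) ⟨h', ?_⟩
    rw [hm, map_mul, h0, pow_succ] at hh
    apply mul_left_cancel₀ hX0
    linear_combination hh
  have heps : eps h ≠ 0 := by
    intro e
    have := X0_dvd_sub h
    rw [e, map_zero, sub_zero] at this
    exact hndvd this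
  have hgh : gg ∣ eps h := by
    apply hker
    obtain ⟨c, hc⟩ := X0_dvd_sub h
    have : incl (eps h) = h - X 0 * c := by rw [← hc]; ring
    rw [this, map_sub, map_mul, h0, ← hh]
    exact dvd_sub (dvd_mul_of_dvd_left (dvd_pow_self _ hn0) _) (dvd_mul_right _ _)
  -- step 3: another index
  obtain ⟨j, hji⟩ : ∃ j : Fin 3, i ≠ j := exists_ne i |>.imp fun _ h => h.symm
  set δ : Derivation ℂ P4 P4 := pderiv j.succ with hδ
  have hδh : δ (ψ h) = 0 := by
    rw [← hh, hδ, pd_mul_X0_pow, pderiv_X_of_ne (fun e => hji (Fin.succ_injective _ e)), mul_zero]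
  -- step 4/5: clear denominators
  obtain ⟨N, q, hq⟩ : ∃ (N : ℕ) (q : Fin 3 → P4), ∀ k, X 0 ^ N * δ (ψ (X k.succ)) = ψ (q k) := by
    choose n p hp using fun k : Fin 3 => hloc (δ (ψ (X k.succ)))
    refine ⟨∑ k, n k, fun k => X 0 ^ (∑ l, n l - n k) * p k, fun k => ?_⟩
    have hle : n k ≤ ∑ l, n l := Finset.single_le_sum (f := n) (fun _ _ => Nat.zero_le _)
      (Finset.mem_univ k)
    rw [map_mul, map_pow, h0, ← hp, ← mul_assoc, ← pow_add, Nat.sub_add_cancel hle]
  have hchain : ∀ p, δ (ψ p) = ∑ k : Fin 3, ψ (pderiv k.succ p) * δ (ψ (X k.succ)) := by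
    intro p
    rw [chain ψ δ p, Fin.sum_univ_succ, h0, hδ, pd_X0, mul_zero, zero_add]
  have hqne : ∃ k, q k ≠ 0 := by
    by_contra hcon
    push Not at hcon
    have hz : ∀ k : Fin 3, δ (ψ (X k.succ)) = 0 := by
      intro k
      have := hq k
      rw [hcon k, map_zero] at this
      exact (mul_eq_zero.mp this).resolve_left (pow_ne_zero _ hX0)
    obtain ⟨n', p, hp⟩ := hloc (X j.succ)
    have := hchain p
    rw [← hp, hδ, pd_mul_X0_pow, pderiv_X_self, mul_one] at this
    simp only [← hδ, hz, mul_zero, Finset.sum_const_zero] at this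
    exact pow_ne_zero _ hX0 this
  obtain ⟨m, q', hq', k0, hk0⟩ := normalize_family q hqne
  set δ' : Derivation ℂ P4 P4 := mkDerivation ℂ (Fin.cases 0 q') with hδ'
  have hδ'0 : δ' (X 0) = 0 := by simp [hδ', mkDerivation_X]
  have hδ's : ∀ k : Fin 3, δ' (X k.succ) = q' k := by intro k; simp [hδ', mkDerivation_X]
  have hrel : ∀ p, X 0 ^ m * ψ (δ' p) = X 0 ^ N * δ (ψ p) := by
    intro p
    rw [deriv_sum δ' p, Fin.sum_univ_succ, hδ'0, mul_zero, zero_add, hchain, map_sum,
      Finset.mul_sum, Finset.mul_sum]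
    refine Finset.sum_congr rfl fun k _ => ?_
    have := hq k
    rw [hq' k, map_mul, map_pow, h0] at this
    rw [hδ's, map_mul]
    linear_combination (-ψ (pderiv k.succ p)) * this
  have hδX : ∀ t : ℕ, δ (X 0 ^ t) = 0 := fun t => pd_X0_pow j t
  have hrelk : ∀ (t : ℕ) p, X 0 ^ (m * t) * ψ ((δ' : P4 → P4)^[t] p) =
      X 0 ^ (N * t) * (δ : P4 → P4)^[t] (ψ p) := by
    intro t
    induction t with
    | zero => simp
    | succ t ih =>
      intro p
      rw [Function.iterate_succ_apply', Function.iterate_succ_apply']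
      have e1 := hrel ((δ' : P4 → P4)^[t] p)
      have e2 := congrArg δ (ih p)
      simp only [Derivation.leibniz, hδX, smul_eq_mul, mul_zero, add_zero] at e2
      rw [Nat.mul_succ, Nat.mul_succ, pow_add, pow_add]
      linear_combination (X 0 ^ (m * t)) * e1 + (X 0 ^ N) * e2
  have hLN' : LN δ' := by
    intro p
    obtain ⟨t, ht⟩ := LN_pderiv j.succ (ψ p)
    refine ⟨t, hinj ?_⟩
    have := hrelk t p
    rw [hδ, ht, mul_zero] at this
    rw [map_zero]
    exact (mul_eq_zero.mp this).resolve_left (pow_ne_zero _ hX0)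
  -- the Jacobian factor
  set u := Jac dy (ψ (X 1)) (ψ (X 2)) (ψ (X 3)) with hu
  obtain ⟨w, t, hw⟩ : ∃ (w : P4) (t : ℕ), u * w = X 0 ^ t := by
    obtain ⟨n1, p1, hp1⟩ := hloc (X 1)
    obtain ⟨n2, p2, hp2⟩ := hloc (X 2)
    obtain ⟨n3, p3, hp3⟩ := hloc (X 3)
    refine ⟨ψ (Jac dy p1 p2 p3), n1 + n2 + n3, ?_⟩
    rw [mul_comm, hu, ← Jac_chain ψ h0, ← hp1, ← hp2, ← hp3]
    simp only [Jac, dy, pd_mul_X0_pow]
    simp [pderiv_X, pow_add]
    ring
  have hune : u * w ≠ 0 := by rw [hw]; exact pow_ne_zero _ hX0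
  have hδu : δ u = 0 := (LN_pderiv j.succ).fact_closed hune (by rw [hw]; exact hδX t)
  have hu0 : u ≠ 0 := left_ne_zero_of_mul hune
  have hJ' : ∀ p q r, δ' (Jac dy p q r) =
      Jac dy (δ' p) q r + Jac dy p (δ' q) r + Jac dy p q (δ' r) := by
    intro p q r
    apply hinj
    apply mul_left_cancel₀ (pow_ne_zero m hX0)
    apply mul_right_cancel₀ hu0
    have e1 := hrel (Jac dy p q r)
    have e2 := congrArg δ (Jac_chain ψ h0 p q r)
    rw [Derivation.leibniz, ← hu, hδu, hδ, pd_Jac, ← hδ] at e2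
    simp only [smul_eq_mul, mul_zero, zero_add] at e2
    have l1 : ∀ (t : ℕ) a b c, Jac dy (X 0 ^ t * a) b c = X 0 ^ t * Jac dy a b c := by
      intro t a b c; simp only [Jac, dy, pd_mul_X0_pow]; ring
    have l2 : ∀ (t : ℕ) a b c, Jac dy a (X 0 ^ t * b) c = X 0 ^ t * Jac dy a b c := by
      intro t a b c; simp only [Jac, dy, pd_mul_X0_pow]; ring
    have l3 : ∀ (t : ℕ) a b c, Jac dy a b (X 0 ^ t * c) = X 0 ^ t * Jac dy a b c := by
      intro t a b c; simp only [Jac, dy, pd_mul_X0_pow]; ring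
    have f1 := congrArg (fun a => Jac dy a (ψ q) (ψ r)) (hrel p)
    have f2 := congrArg (fun a => Jac dy (ψ p) a (ψ r)) (hrel q)
    have f3 := congrArg (fun a => Jac dy (ψ p) (ψ q) a) (hrel r)
    simp only [l1, l2, l3] at f1 f2 f3
    rw [Jac_chain ψ h0, ← hu] at f1 f2 f3
    simp only [map_add]
    linear_combination u * e1 - X 0 ^ N * e2 - f1 - f2 - f3
  -- reduction modulo the first variable
  set d : Derivation ℂ P3 P3 := mkDerivation ℂ (fun k => eps (q' k)) with hd
  have hdX : ∀ k, d (X k) = eps (q' k) := by intro k; simp [hd, mkDerivation_X]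
  have hred : ∀ p, eps (δ' p) = d (eps p) := by
    intro p
    rw [deriv_sum δ' p, Fin.sum_univ_succ, hδ'0, mul_zero, zero_add, deriv_sum d, map_sum]
    refine Finset.sum_congr rfl fun k _ => ?_
    rw [map_mul, eps_pderiv, hδ's, hdX]
  have hLNd : LN d := by
    intro p
    obtain ⟨t, ht⟩ := hLN' (incl p)
    refine ⟨t, ?_⟩
    have : ∀ (t : ℕ) p, eps ((δ' : P4 → P4)^[t] p) = (d : P3 → P3)^[t] (eps p) := by
      intro t
      induction t with
      | zero => simp
      | succ t ih => intro p; simp only [Function.iterate_succ_apply', hred, ih]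
    rw [← eps_incl p, ← this, ht, map_zero]
  have hδ'h : δ' h = 0 := by
    apply hinj
    have := hrel h
    rw [hδh, mul_zero] at this
    rw [map_zero]
    exact (mul_eq_zero.mp this).resolve_left (pow_ne_zero _ hX0)
  have hdg : d gg = 0 := by
    obtain ⟨c, hc⟩ := hgh
    refine hLNd.fact_closed (b := c) (by rw [← hc]; exact heps) ?_
    rw [← hc, ← hred, hδ'h, map_zero]
  have hdJ : ∀ p q, d (Jac dz gg p q) = Jac dz gg (d p) q + Jac dz gg p (d q) := by
    intro p q
    have := congrArg eps (hJ' (incl gg) (incl p) (incl q))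
    simp only [hred, map_add, eps_Jac, eps_incl, hdg] at this
    rw [this]
    simp [Jac, dz]
  have := rigid d hLNd hdg hdJ k0
  rw [hdX] at this
  have h2 := X0_dvd_sub (q' k0)
  rw [this, map_zero, sub_zero] at h2
  exact hk0 h2

end Crest.Agent.R268
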