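import Crest.Agent.R268.Frames
import Crest.Agent.R268.Descent

set_option autoImplicit false

/-! The fibres of `F = x + H J`, and the hypotheses of the descent lemma. -/

namespace Crest.Agent.R268

open MvPolynomial

section ring
variable {C : Type*} [CommRing C]

def rho (x J a₁ a₂ b : C) : C := b * J ^ 2 - 2 * a₁ * a₂ ^ 2 * J - x * a₂ ^ 3
def WW (x H J a₁ a₂ b : C) : C := a₁ - 2 * H * a₂ + J * rho x J a₁ a₂ b
def A1' (x H J W : C) : C := x * W + 2 * H ^ 2 - J ^ 4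
def A2' (H J W : C) : C := H - J * W
def A1 (x H J W : C) : C := H ^ 3 * J + x * A1' x H J W
def A2 (x H J W : C) : C := J ^ 5 + x * A2' H J W
def B0 (x H J W : C) : C :=
  (x ^ 5 + 6 * x ^ 4 * (H * J) + 15 * x ^ 3 * (H * J) ^ 2 + 20 * x ^ 2 * (H * J) ^ 3
    + 15 * x * (H * J) ^ 4 + 6 * (H * J) ^ 5) * J
  - (2 * H ^ 3 * J * A1' x H J W + x * A1' x H J W ^ 2) * A2 x H J W - H ^ 6 * J ^ 2 * A2' H J W

lemma B0_spec (x H J W : C) :
    x * B0 x H J W = (x + H * J) ^ 6 * J - A1 x H J W ^ 2 * A2 x H J W := by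
  unfold B0 A1
  have : A2 x H J W = J ^ 5 + x * A2' H J W := rfl
  generalize A1' x H J W = p at *
  rw [this]
  ring

lemma A12_spec (x H J W : C) :
    A1 x H J W * J + x * A2 x H J W = (x + H * J) ^ 2 * H := by
  unfold A1 A2 A1' A2'; ring

variable {x H J a₁ a₂ b : C}

lemma Frame.rho_spec (h : Frame x H J a₁ a₂ b) : H ^ 2 * a₂ = J ^ 3 - x * rho x J a₁ a₂ b := by
  unfold rho
  linear_combination (H + a₁ * J + x * a₂) * a₂ * h.hH - J ^ 2 * h.hJ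

lemma Frame.A1_spec (h : Frame x H J a₁ a₂ b) :
    (x + H * J) ^ 2 * a₁ = A1 x H J (WW x H J a₁ a₂ b) := by
  have := h.rho_spec
  unfold A1 A1' WW
  generalize rho x J a₁ a₂ b = r at *
  linear_combination (-2 * x * H - H ^ 2 * J) * h.hH - x * J * this

lemma Frame.A2_spec (h : Frame x H J a₁ a₂ b) :
    (x + H * J) ^ 2 * a₂ = A2 x H J (WW x H J a₁ a₂ b) := by
  have := h.rho_spec
  unfold A2 A2' WW
  generalize rho x J a₁ a₂ b = r at *
  linear_combination (-x) * h.hH + J ^ 2 * this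

lemma Frame.B0_spec (h : Frame x H J a₁ a₂ b) :
    x * ((x + H * J) ^ 6 * b) = x * B0 x H J (WW x H J a₁ a₂ b) := by
  rw [R268.B0_spec, ← h.A1_spec, ← h.A2_spec]
  linear_combination (-(x + H * J) ^ 6) * h.hJ

lemma Frame.g_spec (h : Frame x H J a₁ a₂ b) :
    H * J * WW x H J a₁ a₂ b - H ^ 2 + J ^ 4 = (x + H * J) * (J * rho x J a₁ a₂ b - H * a₂) := by
  have := h.rho_spec
  unfold WW
  generalize rho x J a₁ a₂ b = r at *
  linear_combination (-H) * h.hH - J * this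

/-- coordinates on the special fibre -/
def U1 (H a₁ a₂ : C) : C := a₁ - H * a₂
def KK (H J a₁ a₂ b : C) : C :=
  U1 H a₁ a₂ * (1 + J * a₂) ^ 2 * a₂ * b - J ^ 2 * b ^ 2 - 2 * a₂ ^ 2 - a₂ ^ 3 * J
def U2 (H J a₁ a₂ b : C) : C := a₂ - J * KK H J a₁ a₂ b
def VV (H J a₁ a₂ b : C) : C :=
  (1 + U1 H a₁ a₂ ^ 2 * KK H J a₁ a₂ b) * b * (1 + J * a₂) ^ 2 - U1 H a₁ a₂ * J * b ^ 2
    - U1 H a₁ a₂ * a₂ ^ 3 - 2 * U1 H a₁ a₂ * KK H J a₁ a₂ b * (a₂ + U2 H J a₁ a₂ b)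

lemma Frame.special (h : Frame x H J a₁ a₂ b) (h0 : x + H * J = 0) :
    H = U1 H a₁ a₂ * J ∧ J = U1 H a₁ a₂ ^ 2 * U2 H J a₁ a₂ b ∧
      a₂ = U2 H J a₁ a₂ b - 2 * U1 H a₁ a₂ ^ 2 * U2 H J a₁ a₂ b ^ 3
        + U1 H a₁ a₂ ^ 3 * U2 H J a₁ a₂ b ^ 2 * VV H J a₁ a₂ b := by
  have f := h.shift 1 0 (by linear_combination -h0)
  have hk : kap 1 0 H J a₁ a₂ b = KK H J a₁ a₂ b := by unfold kap KK U1; ring
  have e1 : H = U1 H a₁ a₂ * J := by unfold U1; linear_combination f.hH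
  have e2 : J = U1 H a₁ a₂ ^ 2 * U2 H J a₁ a₂ b := by
    unfold U2 U1; rw [← hk]; linear_combination f.hJ
  refine ⟨e1, e2, ?_⟩
  have e3 : a₂ = U2 H J a₁ a₂ b + J * KK H J a₁ a₂ b := by unfold U2; ring
  have e4 : KK H J a₁ a₂ b = U1 H a₁ a₂ * (1 + J * a₂) ^ 2 * a₂ * b - J ^ 2 * b ^ 2
    - 2 * a₂ ^ 2 - a₂ ^ 3 * J := rfl
  unfold VV
  generalize U1 H a₁ a₂ = u at *
  generalize U2 H J a₁ a₂ b = v at *
  generalize KK H J a₁ a₂ b = κ at *
  have e5 : κ + 2 * v ^ 2 = u * v * ((1 + u ^ 2 * κ) * b * (1 + J * a₂) ^ 2 - u * J * b ^ 2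
      - u * a₂ ^ 3 - 2 * u * κ * (a₂ + v)) := by
    linear_combination e4 + (u * (1 + J * a₂) ^ 2 * b - 2 * (a₂ + v)) * e3
      + (u * (1 + J * a₂) ^ 2 * b * κ - J * b ^ 2 - a₂ ^ 3 - 2 * κ * (a₂ + v)) * e2
  linear_combination e3 + κ * e2 + u ^ 2 * v * e5

def pa2 (u v w : C) : C := v - 2 * u ^ 2 * v ^ 3 + u ^ 3 * v ^ 2 * w
def pa1 (u v w : C) : C := u * (1 + u ^ 2 * v * pa2 u v w)
def pb (u v w : C) : C :=
  w + u * v ^ 2 * (2 * (u * w - 2 * v) * (2 - 2 * u ^ 2 * v ^ 2 + u ^ 3 * v * w)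
    + v * (1 - 2 * u ^ 2 * v ^ 2 + u ^ 3 * v * w) ^ 3)

lemma param_frame (u v w : C) :
    Frame (-(u ^ 5 * v ^ 2)) (u ^ 3 * v) (u ^ 2 * v) (pa1 u v w) (pa2 u v w) (pb u v w) :=
  ⟨by unfold pa1; ring, by unfold pa1 pa2 pb; ring⟩

end ring

section maps
variable {C D F : Type*} [CommRing C] [CommRing D] [FunLike F C D] [RingHomClass F C D] (f : F)

lemma map_WW (x H J a₁ a₂ b : C) :
    f (WW x H J a₁ a₂ b) = WW (f x) (f H) (f J) (f a₁) (f a₂) (f b) := by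
  simp [WW, rho, map_ofNat]
lemma map_A1 (x H J W : C) : f (A1 x H J W) = A1 (f x) (f H) (f J) (f W) := by
  simp [A1, A1', map_ofNat]
lemma map_A2 (x H J W : C) : f (A2 x H J W) = A2 (f x) (f H) (f J) (f W) := by
  simp [A2, A2']
lemma map_B0 (x H J W : C) : f (B0 x H J W) = B0 (f x) (f H) (f J) (f W) := by
  simp [B0, A1', A2, A2', map_ofNat]
lemma map_U1 (H a₁ a₂ : C) : f (U1 H a₁ a₂) = U1 (f H) (f a₁) (f a₂) := by simp [U1]
lemma map_U2 (H J a₁ a₂ b : C) : f (U2 H J a₁ a₂ b) = U2 (f H) (f J) (f a₁) (f a₂) (f b) := by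
  simp [U2, KK, U1, map_ofNat]
lemma map_VV (H J a₁ a₂ b : C) : f (VV H J a₁ a₂ b) = VV (f H) (f J) (f a₁) (f a₂) (f b) := by
  simp [VV, U2, KK, U1, map_ofNat]
lemma map_pa2 (u v w : C) : f (pa2 u v w) = pa2 (f u) (f v) (f w) := by simp [pa2, map_ofNat]
lemma map_pa1 (u v w : C) : f (pa1 u v w) = pa1 (f u) (f v) (f w) := by
  simp [pa1, pa2, map_ofNat]
lemma map_pb (u v w : C) : f (pb u v w) = pb (f u) (f v) (f w) := by simp [pb, map_ofNat]
end maps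

noncomputable def FF : P4 := X 0 + HH * JJ
noncomputable def W0 : P4 := WW (X 0) HH JJ (X 1) (X 2) (X 3)

lemma FF_eq : FF = xi 1 := by simp [FF, xi]

lemma quot_equiv (f : P4) (φ : P4 →ₐ[ℂ] P3) (θ : P3 →ₐ[ℂ] P4) (hφ : φ f = 0)
    (h1 : ∀ i, φ (θ (X i)) = X i)
    (h2 : ∀ i, Ideal.Quotient.mkₐ ℂ (Ideal.span {f}) (θ (φ (X i))) =
      Ideal.Quotient.mkₐ ℂ (Ideal.span {f}) (X i)) :
    Nonempty ((P4 ⧸ Ideal.span {f}) ≃ₐ[ℂ] P3) := by
  refine ⟨AlgEquiv.ofAlgHom (Ideal.Quotient.liftₐ (Ideal.span {f}) φ ?_)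
    ((Ideal.Quotient.mkₐ ℂ (Ideal.span {f})).comp θ) ?_ ?_⟩
  · intro a ha
    obtain ⟨c, rfl⟩ := Ideal.mem_span_singleton'.mp ha
    simp [hφ]
  · ext i : 1
    exact h1 i
  · apply Ideal.Quotient.algHom_ext
    ext i : 1
    exact h2 i

/-! ### general fibres -/

noncomputable def xt (c : ℂ) : P3 := C c - X 0 * X 1

lemma xt_ne_zero {c : ℂ} (hc : c ≠ 0) : xt c ≠ 0 := by
  intro h
  have := congrArg (eval ![0, 0, 0]) h
  simp [xt, hc] at this

lemma gen_frame {c : ℂ} (hc : c ≠ 0) : Frame (xt c) (X 0) (X 1)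
    (C c⁻¹ ^ 2 * A1 (xt c) (X 0) (X 1) (X 2)) (C c⁻¹ ^ 2 * A2 (xt c) (X 0) (X 1) (X 2))
    (C c⁻¹ ^ 6 * B0 (xt c) (X 0) (X 1) (X 2)) := by
  have hcc : (C c⁻¹ : P3) * C c = 1 := by rw [← map_mul, inv_mul_cancel₀ hc, map_one]
  have hF : xt c + X 0 * X 1 = C c := by simp [xt]
  have e1 := A12_spec (xt c) (X 0) (X 1) (X 2)
  have e2 := B0_spec (xt c) (X 0) (X 1) (X 2)
  rw [hF] at e1 e2
  constructor
  · linear_combination (-(C c⁻¹) ^ 2) * e1 - (X 0 * (C c⁻¹ * C c + 1)) * hcc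
  · linear_combination (-(C c⁻¹) ^ 6) * e2 - (X 1 * ((C c⁻¹ * C c) ^ 5 + (C c⁻¹ * C c) ^ 4
      + (C c⁻¹ * C c) ^ 3 + (C c⁻¹ * C c) ^ 2 + (C c⁻¹ * C c) + 1)) * hcc

noncomputable def phi (c : ℂ) : P4 →ₐ[ℂ] P3 := ofFrame (xt c)
    (C c⁻¹ ^ 2 * A1 (xt c) (X 0) (X 1) (X 2)) (C c⁻¹ ^ 2 * A2 (xt c) (X 0) (X 1) (X 2))
    (C c⁻¹ ^ 6 * B0 (xt c) (X 0) (X 1) (X 2))

lemma phi_H {c : ℂ} (hc : c ≠ 0) : phi c HH = X 0 := ofFrame_H (gen_frame hc)
lemma phi_J {c : ℂ} (hc : c ≠ 0) : phi c JJ = X 1 := ofFrame_J (gen_frame hc)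
lemma phi_x (c : ℂ) : phi c (X 0) = xt c := ofFrame_0
lemma phi_F {c : ℂ} (hc : c ≠ 0) : phi c FF = C c := by
  rw [FF, map_add, map_mul, phi_H hc, phi_J hc, phi_x]; simp [xt]
lemma phi_W {c : ℂ} (hc : c ≠ 0) : phi c W0 = X 2 := by
  have hcc : (C c⁻¹ : P3) * C c = 1 := by rw [← map_mul, inv_mul_cancel₀ hc, map_one]
  have e := congrArg (phi c) frame0.A1_spec
  rw [map_mul, map_pow, ← FF, phi_F hc, map_A1, phi_H hc, phi_J hc, phi_x, ← W0] at e
  have e1 : phi c (X 1) = C c⁻¹ ^ 2 * A1 (xt c) (X 0) (X 1) (X 2) := ofFrame_1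
  rw [e1] at e
  apply mul_left_cancel₀ (pow_ne_zero 2 (xt_ne_zero hc))
  unfold A1 A1' at e
  linear_combination -e + ((C c⁻¹ * C c + 1) * (X 0 ^ 3 * X 1 + xt c * (xt c * X 2
    + 2 * X 0 ^ 2 - X 1 ^ 4))) * hcc

noncomputable def theta : P3 →ₐ[ℂ] P4 := aeval ![HH, JJ, W0]
@[simp] lemma theta_0 : theta (X 0) = HH := by simp [theta]
@[simp] lemma theta_1 : theta (X 1) = JJ := by simp [theta]
@[simp] lemma theta_2 : theta (X 2) = W0 := by simp [theta]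

lemma F_a1 : FF ^ 2 * X 1 = A1 (X 0) HH JJ W0 := frame0.A1_spec
lemma F_a2 : FF ^ 2 * X 2 = A2 (X 0) HH JJ W0 := frame0.A2_spec
lemma F_b : FF ^ 6 * X 3 = B0 (X 0) HH JJ W0 :=
  mul_left_cancel₀ (X_ne_zero (0 : Fin 4)) frame0.B0_spec

lemma gen_fibre {c : ℂ} (hc : c ≠ 0) :
    Nonempty ((P4 ⧸ Ideal.span {FF - C c}) ≃ₐ[ℂ] P3) := by
  refine quot_equiv _ (phi c) theta (by simp [phi_F hc]) ?_ ?_
  · intro i
    fin_cases i
    · simpa using phi_H hc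
    · simpa using phi_J hc
    · simpa using phi_W hc
  · set π := Ideal.Quotient.mkₐ ℂ (Ideal.span {FF - C c}) with hπ
    have hF : π FF = π (C c) := by
      rw [← sub_eq_zero, ← map_sub, hπ, Ideal.Quotient.mkₐ_eq_mk, Ideal.Quotient.eq_zero_iff_mem]
      exact Ideal.subset_span rfl
    have hcc : π (C c⁻¹) * π (C c) = 1 := by
      rw [← map_mul, ← map_mul, inv_mul_cancel₀ hc, map_one, map_one]
    have hx : π (theta (xt c)) = π (X 0) := by
      have : theta (xt c) = C c - HH * JJ := by simp [xt]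
      rw [this, map_sub, ← hF, ← map_sub]; congr 1; unfold FF; ring
    have hC : ∀ a : ℂ, theta (C a) = C a := fun a => by simp
    intro i
    fin_cases i
    · simpa [phi] using hx
    · have e := congrArg π F_a1
      rw [map_mul, map_pow, hF, map_A1] at e
      show π (theta (phi c (X 1))) = π (X 1)
      rw [phi, ofFrame_1, map_mul, map_pow, map_A1, hC, map_mul, map_pow, map_A1, hx,
        theta_0, theta_1, theta_2, ← e]
      linear_combination (π (X 1) * (π (C c⁻¹) * π (C c) + 1)) * hcc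
    · have e := congrArg π F_a2
      rw [map_mul, map_pow, hF, map_A2] at e
      show π (theta (phi c (X 2))) = π (X 2)
      rw [phi, ofFrame_2, map_mul, map_pow, map_A2, hC, map_mul, map_pow, map_A2, hx,
        theta_0, theta_1, theta_2, ← e]
      linear_combination (π (X 2) * (π (C c⁻¹) * π (C c) + 1)) * hcc
    · have e := congrArg π F_b
      rw [map_mul, map_pow, hF, map_B0] at e
      show π (theta (phi c (X 3))) = π (X 3)
      rw [phi, ofFrame_3, map_mul, map_pow, map_B0, hC, map_mul, map_pow, map_B0, hx,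
        theta_0, theta_1, theta_2, ← e]
      generalize π (C c⁻¹) = s at *
      generalize π (C c) = t at *
      linear_combination (π (X 3) * ((s * t) ^ 5 + (s * t) ^ 4 + (s * t) ^ 3 + (s * t) ^ 2
        + (s * t) + 1)) * hcc

/-! ### the special fibre -/

noncomputable def phi0 : P4 →ₐ[ℂ] P3 := ofFrame (-(X 0 ^ 5 * X 1 ^ 2))
  (pa1 (X 0) (X 1) (X 2)) (pa2 (X 0) (X 1) (X 2)) (pb (X 0) (X 1) (X 2))

lemma phi0_H : phi0 HH = X 0 ^ 3 * X 1 := ofFrame_H (param_frame _ _ _)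
lemma phi0_J : phi0 JJ = X 0 ^ 2 * X 1 := ofFrame_J (param_frame _ _ _)
lemma phi0_x : phi0 (X 0) = -(X 0 ^ 5 * X 1 ^ 2) := ofFrame_0
lemma phi0_F : phi0 FF = 0 := by
  rw [FF, map_add, map_mul, phi0_H, phi0_J, phi0_x]; ring

noncomputable def theta0 : P3 →ₐ[ℂ] P4 :=
  aeval ![U1 HH (X 1) (X 2), U2 HH JJ (X 1) (X 2) (X 3), VV HH JJ (X 1) (X 2) (X 3)]

lemma X0_not_dvd_F : ¬ (X 0 : P4) ∣ FF := not_dvd_of_eval (by simp [FF, HH, JJ])

lemma special_fibre : Nonempty ((P4 ⧸ Ideal.span {FF}) ≃ₐ[ℂ] P3) := by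
  have t0 : theta0 (X 0) = U1 HH (X 1) (X 2) := by simp [theta0]
  have t1 : theta0 (X 1) = U2 HH JJ (X 1) (X 2) (X 3) := by simp [theta0]
  have t2 : theta0 (X 2) = VV HH JJ (X 1) (X 2) (X 3) := by simp [theta0]
  refine quot_equiv _ phi0 theta0 phi0_F ?_ ?_
  · obtain ⟨-, e2, e3⟩ := (frame0.map phi0).special (by rw [← map_mul, ← map_add]; exact phi0_F)
    rw [← map_U1, ← map_U2, ← t0, ← t1] at e2 e3
    rw [← map_VV, ← t2] at e3
    have p1 : phi0 (X 1) = pa1 (X 0) (X 1) (X 2) := ofFrame_1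
    have p2 : phi0 (X 2) = pa2 (X 0) (X 1) (X 2) := ofFrame_2
    have hX0 : (X 0 : P3) ≠ 0 := X_ne_zero _
    have hX1 : (X 1 : P3) ≠ 0 := X_ne_zero _
    have s0 : phi0 (theta0 (X 0)) = X 0 := by
      rw [t0, map_U1, phi0_H, p1, p2]; unfold U1 pa1; ring
    have s1 : phi0 (theta0 (X 1)) = X 1 := by
      rw [s0, phi0_J] at e2
      exact (mul_left_cancel₀ (pow_ne_zero 2 hX0) e2).symm
    have s2 : phi0 (theta0 (X 2)) = X 2 := by
      rw [s0, s1, p2] at e3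
      apply mul_left_cancel₀ (mul_ne_zero (pow_ne_zero 3 hX0) (pow_ne_zero 2 hX1))
      unfold pa2 at e3
      linear_combination -e3
    intro i
    fin_cases i
    · exact s0
    · exact s1
    · exact s2
  · set π := Ideal.Quotient.mkₐ ℂ (Ideal.span {FF}) with hπ
    have hz : ∀ p, π p = 0 ↔ FF ∣ p := by
      intro p
      rw [hπ, Ideal.Quotient.mkₐ_eq_mk, Ideal.Quotient.eq_zero_iff_mem, Ideal.mem_span_singleton]
    have hreg : ∀ p q : P4, π (X 0) * π p = π (X 0) * π q → π p = π q := by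
      intro p q h
      rw [← sub_eq_zero, ← mul_sub, ← map_sub, ← map_mul, hz] at h
      rw [← sub_eq_zero, ← map_sub, hz]
      obtain ⟨r, hr⟩ := h
      have : (X 0 : P4) ∣ FF * r := ⟨_, hr.symm⟩
      obtain ⟨s, rfl⟩ := (X_prime.dvd_or_dvd this).resolve_left X0_not_dvd_F
      exact ⟨s, mul_left_cancel₀ (X_ne_zero (0 : Fin 4)) (by linear_combination hr)⟩
    have hF : π (X 0) + π HH * π JJ = 0 := by
      rw [← map_mul, ← map_add]; exact (hz _).mpr dvd_rfl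
    have f := frame0.map π
    obtain ⟨e1, e2, e3⟩ := f.special hF
    rw [← map_U1, ← t0] at e1
    rw [← map_U1, ← map_U2, ← t0, ← t1] at e2 e3
    rw [← map_VV, ← t2] at e3
    have e0 : π (theta0 (X 0)) = π (X 1) - π HH * π (X 2) := by
      rw [t0, map_U1]; rfl
    have g := param_frame (π (theta0 (X 0))) (π (theta0 (X 1))) (π (theta0 (X 2)))
    have s0 : π (theta0 (phi0 (X 0))) = π (X 0) := by
      rw [phi0_x]
      simp only [map_neg, map_mul, map_pow]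
      linear_combination -hF + π JJ * e1 + (π (theta0 (X 0)) * (π JJ + π (theta0 (X 0)) ^ 2
        * π (theta0 (X 1)))) * e2
    have s2 : pa2 (π (theta0 (X 0))) (π (theta0 (X 1))) (π (theta0 (X 2))) = π (X 2) := by
      unfold pa2; exact e3.symm
    have s1 : pa1 (π (theta0 (X 0))) (π (theta0 (X 1))) (π (theta0 (X 2))) = π (X 1) := by
      unfold pa1
      rw [s2]
      linear_combination e0 - π (X 2) * e1 - π (theta0 (X 0)) * π (X 2) * e2
    intro i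
    fin_cases i
    · exact s0
    · show π (theta0 (phi0 (X 1))) = π (X 1)
      rw [phi0, ofFrame_1, map_pa1, map_pa1, s1]
    · show π (theta0 (phi0 (X 2))) = π (X 2)
      rw [phi0, ofFrame_2, map_pa2, map_pa2, s2]
    · show π (theta0 (phi0 (X 3))) = π (X 3)
      apply hreg
      rw [phi0, ofFrame_3, map_pb, map_pb]
      have g2 := g.hJ
      rw [s1, s2] at g2
      rw [phi0_x] at s0
      simp only [map_neg, map_mul, map_pow] at s0
      rw [s0] at g2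
      linear_combination f.hJ - g2 - e2

end Crest.Agent.R268
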