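import Crest.Agent.R268.LND

set_option autoImplicit false

/-! Frames and the stable trivialisation of `F = x + H J`. -/

namespace Crest.Agent.R268

open MvPolynomial

/-- `(a₁, a₂, b)` is a `ξ`-frame over `(H, J)`. -/
structure Frame {C : Type*} [CommRing C] (ξ H J a₁ a₂ b : C) : Prop where
  hH : H = a₁ * J + ξ * a₂
  hJ : J = a₁ ^ 2 * a₂ + ξ * b

section ring
variable {C D : Type*} [CommRing C] [CommRing D]

lemma Frame.map {F : Type*} [FunLike F C D] [RingHomClass F C D] (f : F) {ξ H J a₁ a₂ b : C}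
    (h : Frame ξ H J a₁ a₂ b) : Frame (f ξ) (f H) (f J) (f a₁) (f a₂) (f b) :=
  ⟨by have := congrArg f h.hH; simpa using this, by have := congrArg f h.hJ; simpa using this⟩

lemma Frame.act {ξ H J a₁ a₂ b : C} (h : Frame ξ H J a₁ a₂ b) (w : C) :
    Frame ξ H J (a₁ + ξ ^ 2 * w) (a₂ - ξ * J * w)
      (b - 2 * ξ * a₁ * a₂ * w - ξ ^ 3 * a₂ * w ^ 2 + J * w * (a₁ + ξ ^ 2 * w) ^ 2) :=
  ⟨by linear_combination h.hH, by linear_combination h.hJ⟩

lemma Frame.unique [IsDomain C] {ξ H J a₁ a₂ b a₂' b' : C} (hξ : ξ ≠ 0)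
    (h : Frame ξ H J a₁ a₂ b) (h' : Frame ξ H J a₁ a₂' b') : a₂ = a₂' ∧ b = b' := by
  have e : a₂ = a₂' := mul_left_cancel₀ hξ (by linear_combination h'.hH - h.hH)
  subst e
  exact ⟨rfl, mul_left_cancel₀ hξ (by linear_combination h'.hJ - h.hJ)⟩

lemma Frame.diff [IsDomain C] {ξ H J a₁ a₂ b a₁' a₂' b' : C} (hξ : Prime ξ) (hH : ¬ ξ ∣ H)
    (hJ : ¬ ξ ∣ J) (h : Frame ξ H J a₁ a₂ b) (h' : Frame ξ H J a₁' a₂' b') :
    ∃ w, a₁' = a₁ + ξ ^ 2 * w := by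
  have h1 : ξ ∣ J * (a₁' - a₁) := ⟨a₂ - a₂', by linear_combination h.hH - h'.hH⟩
  obtain ⟨k, hk⟩ := (hξ.dvd_or_dvd h1).resolve_left hJ
  have e1 : a₁' = a₁ + ξ * k := by linear_combination hk
  have e2 : a₂' = a₂ - J * k := by
    apply mul_left_cancel₀ hξ.ne_zero
    have := h'.hH
    rw [e1] at this
    linear_combination h.hH - this
  have h2 : ξ ∣ a₁ * (a₁ * (J * k)) := by
    refine ⟨b' - b + k * (2 * a₁ + ξ * k) * (a₂ - J * k), ?_⟩
    have := h'.hJ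
    rw [e1, e2] at this
    linear_combination this - h.hJ
  have ha : ¬ ξ ∣ a₁ := by
    rintro ⟨c, hc⟩
    exact hH ⟨c * J + a₂, by rw [h.hH, hc]; ring⟩
  obtain ⟨w, hw⟩ := (hξ.dvd_or_dvd ((hξ.dvd_or_dvd ((hξ.dvd_or_dvd h2).resolve_left
    ha)).resolve_left ha)).resolve_left hJ
  exact ⟨w, by rw [e1, hw]; ring⟩

/-- the correction term -/
def kap (l ξ H J a₁ a₂ b : C) : C :=
  let _ := ξ
  l * ((a₁ - l * H * a₂) * (1 + l * J * a₂) ^ 2 * a₂ * b - l * J ^ 2 * b ^ 2)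
    - 2 * l * a₂ ^ 2 - l ^ 2 * a₂ ^ 3 * J

def bet (l ξ H J a₁ a₂ b : C) : C :=
  b - (a₁ - l * H * a₂) * a₂ * kap l ξ H J a₁ a₂ b
    - kap l ξ H J a₁ a₂ b * (2 * (a₁ - l * H * a₂) + ξ * kap l ξ H J a₁ a₂ b)
      * (a₂ - J * kap l ξ H J a₁ a₂ b)
    + H * (l ^ 2 * a₂ ^ 4 - l * (l * a₂ ^ 3 * b * (2 * (a₁ - l * H * a₂) * (1 + l * J * a₂)
      + l * ξ * a₂ ^ 2) + b ^ 2 * (1 - l * J * a₂)))

lemma Frame.shift {x H J a₁ a₂ b : C} (h : Frame x H J a₁ a₂ b) (l ξ : C)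
    (hξ : ξ = x + l * H * J) :
    Frame ξ H J (a₁ - l * H * a₂ + ξ * kap l ξ H J a₁ a₂ b) (a₂ - J * kap l ξ H J a₁ a₂ b)
      (bet l ξ H J a₁ a₂ b) := by
  obtain ⟨u, rfl⟩ : ∃ u, a₁ = u + l * H * a₂ := ⟨a₁ - l * H * a₂, by ring⟩
  obtain rfl : x = ξ - l * H * J := by rw [hξ]; ring
  have hH : H = u * J + ξ * a₂ := by linear_combination h.hH
  have hJ := h.hJ
  have hu : u + l * H * a₂ - l * H * a₂ = u := by ring
  refine ⟨by rw [hu]; linear_combination hH, ?_⟩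
  have hk : u * kap l ξ H J (u + l * H * a₂) a₂ b + l * a₂ ^ 2 * (2 * u + l * H * a₂) - l * J * b
      = ξ * (l ^ 2 * a₂ ^ 4 - l * (l * a₂ ^ 3 * b * (2 * u * (1 + l * J * a₂)
      + l * ξ * a₂ ^ 2) + b ^ 2 * (1 - l * J * a₂))) := by
    unfold kap
    simp only [hu]
    subst hH
    linear_combination (-l * b) * hJ
  unfold bet
  simp only [hu]
  generalize kap l ξ H J (u + l * H * a₂) a₂ b = κ at hk ⊢
  linear_combination hJ + H * hk - u * κ * hH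

end ring

noncomputable def JJ : P4 := X 1 ^ 2 * X 2 + X 0 * X 3
noncomputable def HH : P4 := X 1 * JJ + X 0 * X 2
noncomputable def xi (l : ℂ) : P4 := X 0 + C l * HH * JJ

lemma frame0 : Frame (X 0 : P4) HH JJ (X 1) (X 2) (X 3) := ⟨rfl, rfl⟩

/-- the algebra map determined by a frame -/
noncomputable def ofFrame {D : Type*} [CommRing D] [Algebra ℂ D] (ξ a₁ a₂ b : D) : P4 →ₐ[ℂ] D :=
  aeval ![ξ, a₁, a₂, b]

section
variable {D : Type*} [CommRing D] [Algebra ℂ D] {ξ H J a₁ a₂ b : D}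
@[simp] lemma ofFrame_0 : ofFrame ξ a₁ a₂ b (X 0) = ξ := by simp [ofFrame]
@[simp] lemma ofFrame_1 : ofFrame ξ a₁ a₂ b (X 1) = a₁ := by simp [ofFrame]
@[simp] lemma ofFrame_2 : ofFrame ξ a₁ a₂ b (X 2) = a₂ := by simp [ofFrame]
@[simp] lemma ofFrame_3 : ofFrame ξ a₁ a₂ b (X 3) = b := by simp [ofFrame]
lemma ofFrame_J (h : Frame ξ H J a₁ a₂ b) : ofFrame ξ a₁ a₂ b JJ = J := by
  simp [JJ, ← h.hJ]
lemma ofFrame_H (h : Frame ξ H J a₁ a₂ b) : ofFrame ξ a₁ a₂ b HH = H := by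
  simp [HH, ofFrame_J h, ← h.hH]
end

lemma exists_frame (l : ℂ) : ∃ s : P4 × P4 × P4, Frame (xi l) HH JJ s.1 s.2.1 s.2.2 :=
  ⟨⟨_, _, _⟩, frame0.shift (C l) (xi l) rfl⟩

noncomputable def sec (l : ℂ) : P4 × P4 × P4 := (exists_frame l).choose
lemma sec_frame (l : ℂ) : Frame (xi l) HH JJ (sec l).1 (sec l).2.1 (sec l).2.2 :=
  (exists_frame l).choose_spec

open Polynomial in
/-- constants, as an algebra map -/
noncomputable abbrev cc : P4 →ₐ[ℂ] Polynomial P4 := Polynomial.CAlgHom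

lemma T0_frame (l : ℂ) : ∃ s : Polynomial P4 × Polynomial P4,
    Frame (cc (xi l)) (cc HH) (cc JJ) (cc (sec l).1 + cc (xi l) ^ 2 * Polynomial.X) s.1 s.2 :=
  ⟨⟨_, _⟩, ((sec_frame l).map cc).act Polynomial.X⟩

noncomputable def T0 (l : ℂ) : P4 →ₐ[ℂ] Polynomial P4 :=
  ofFrame (cc (xi l)) (cc (sec l).1 + cc (xi l) ^ 2 * Polynomial.X) (T0_frame l).choose.1
    (T0_frame l).choose.2

lemma T0_H (l : ℂ) : T0 l HH = cc HH := ofFrame_H (T0_frame l).choose_spec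
lemma T0_J (l : ℂ) : T0 l JJ = cc JJ := ofFrame_J (T0_frame l).choose_spec
lemma T0_X0 (l : ℂ) : T0 l (X 0) = cc (xi l) := ofFrame_0
lemma T0_X1 (l : ℂ) : T0 l (X 1) = cc (sec l).1 + cc (xi l) ^ 2 * Polynomial.X := ofFrame_1
lemma T0_xi (l l' : ℂ) (h : l + l' = 0) : T0 l (xi l') = cc (X 0) := by
  obtain rfl : l' = -l := by linear_combination h
  have : xi (-l) = X 0 - C l * HH * JJ := by simp [xi]; ring
  rw [this, map_sub, map_mul, map_mul, T0_H, T0_J, T0_X0, algHom_C, xi, map_add, map_mul, map_mul,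
    algHom_C]
  ring

lemma not_dvd_of_eval {p : P4} (h : eval ![0, 1, 1, 1] p ≠ 0) : ¬ (X 0 : P4) ∣ p := by
  rintro ⟨c, rfl⟩
  simp at h

lemma X0_not_dvd_H : ¬ (X 0 : P4) ∣ HH := not_dvd_of_eval (by simp [HH, JJ])
lemma X0_not_dvd_J : ¬ (X 0 : P4) ∣ JJ := not_dvd_of_eval (by simp [JJ])

lemma cc_dvd {p q : P4} (h : cc p ∣ cc q) : p ∣ q := by
  obtain ⟨c, hc⟩ := h
  refine ⟨c.coeff 0, ?_⟩
  have := congrArg (fun r => Polynomial.coeff r 0) hc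
  simpa using this

lemma exists_omega (l l' : ℂ) (h : l + l' = 0) :
    ∃ w, cc (X 1) = T0 l (sec l').1 + cc (X 0) ^ 2 * w := by
  have f1 := (sec_frame l').map (T0 l)
  rw [T0_xi l l' h, T0_H, T0_J] at f1
  exact Frame.diff (Polynomial.prime_C_iff.mpr X_prime) (fun e => X0_not_dvd_H (cc_dvd e))
    (fun e => X0_not_dvd_J (cc_dvd e)) f1 (frame0.map cc)

noncomputable def TT (l l' : ℂ) (h : l + l' = 0) : Polynomial P4 →ₐ[ℂ] Polynomial P4 :=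
  Polynomial.eval₂AlgHom (T0 l) (exists_omega l l' h).choose (fun _ => Commute.all _ _)

lemma TT_cc (l l' : ℂ) (h : l + l' = 0) (p : P4) : TT l l' h (cc p) = T0 l p := by
  simp [TT]

lemma TT_X (l l' : ℂ) (h : l + l' = 0) :
    cc (X 1) = T0 l (sec l').1 + cc (X 0) ^ 2 * TT l l' h Polynomial.X := by
  have : TT l l' h Polynomial.X = (exists_omega l l' h).choose := by simp [TT]
  rw [this]
  exact (exists_omega l l' h).choose_spec

lemma xi_ne_zero (l : ℂ) : xi l ≠ 0 := by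
  intro h
  have := congrArg (eval ![1, 0, 0, 0]) h
  simp [xi, HH, JJ] at this

lemma cc_ne_zero {p : P4} (h : p ≠ 0) : cc p ≠ 0 := by simpa using h

lemma TT_T0 (l l' : ℂ) (h' : l' + l = 0) (p : P4) :
    TT l' l h' (T0 l p) = cc p := by
  have e0 : TT l' l h' (T0 l (X 0)) = cc (X 0) := by rw [T0_X0, TT_cc, T0_xi l' l h']
  have e1 : TT l' l h' (T0 l (X 1)) = cc (X 1) := by
    rw [T0_X1, map_add, map_mul, map_pow, TT_cc, TT_cc, T0_xi l' l h', ← TT_X]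
  have f := (frame0.map (T0 l)).map (TT l' l h')
  rw [e0, e1, T0_H, T0_J, TT_cc, TT_cc, T0_H, T0_J] at f
  obtain ⟨e2, e3⟩ := f.unique (cc_ne_zero (X_ne_zero _)) (frame0.map cc)
  have : (TT l' l h').comp (T0 l) = cc := by
    ext i : 1
    fin_cases i
    · exact e0
    · exact e1
    · exact e2
    · exact e3
  exact DFunLike.congr_fun this p

lemma TT_TT (l l' : ℂ) (h : l + l' = 0) (h' : l' + l = 0) :
    (TT l' l h').comp (TT l l' h) = AlgHom.id ℂ _ := by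
  apply Polynomial.algHom_ext'
  · ext i : 1
    show TT l' l h' (TT l l' h (cc (X i))) = cc (X i)
    rw [TT_cc, TT_T0 l l' h']
  · show TT l' l h' (TT l l' h Polynomial.X) = Polynomial.X
    have e := congrArg (TT l' l h') (TT_X l l' h)
    rw [map_add, map_mul, map_pow, TT_T0 l l' h', TT_cc, TT_cc, T0_X1, T0_X0] at e
    have hne : cc (xi l') ^ 2 ≠ 0 := pow_ne_zero _ (cc_ne_zero (xi_ne_zero l'))
    apply mul_left_cancel₀ hne
    linear_combination -e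

theorem stable : ∃ σ : Polynomial P4 ≃ₐ[ℂ] Polynomial P4,
    σ (Polynomial.C (xi 1)) = Polynomial.C (X 0) := by
  have h : (-1 : ℂ) + 1 = 0 := by ring
  have h' : (1 : ℂ) + -1 = 0 := by ring
  refine ⟨AlgEquiv.ofAlgHom (TT (-1) 1 h) (TT 1 (-1) h') (TT_TT 1 (-1) h' h) (TT_TT (-1) 1 h h'),
    ?_⟩
  show TT (-1) 1 h (cc (xi 1)) = cc (X 0)
  rw [TT_cc, T0_xi _ _ h]

end Crest.Agent.R268
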