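import Mathlib

set_option autoImplicit false

/-! General lemmas on locally nilpotent derivations. -/

namespace Crest.Agent.R268

open MvPolynomial

section general
variable {k R : Type*} [CommRing k] [CommRing R] [Algebra k R]

/-- local nilpotency -/
def LN (d : Derivation k R R) : Prop := ∀ p, ∃ n : ℕ, (d : R → R)^[n] p = 0

lemma iter_zero (d : Derivation k R R) (n : ℕ) : (d : R → R)^[n] 0 = 0 := by
  induction n with
  | zero => rfl
  | succ n ih => rw [Function.iterate_succ_apply', ih, map_zero]

lemma iter_add (d : Derivation k R R) (n : ℕ) (a b : R) :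
    (d : R → R)^[n] (a + b) = (d : R → R)^[n] a + (d : R → R)^[n] b := by
  induction n with
  | zero => rfl
  | succ n ih => simp only [Function.iterate_succ_apply', ih, map_add]

lemma iter_mul_const (d : Derivation k R R) (n : ℕ) (c a : R) (hc : d c = 0) :
    (d : R → R)^[n] (c * a) = c * (d : R → R)^[n] a := by
  induction n with
  | zero => rfl
  | succ n ih =>
    simp only [Function.iterate_succ_apply', ih, Derivation.leibniz, hc, smul_eq_mul]
    ring

lemma iter_mono (d : Derivation k R R) {m n : ℕ} (h : m ≤ n) {a : R}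
    (ha : (d : R → R)^[m] a = 0) : (d : R → R)^[n] a = 0 := by
  obtain ⟨j, rfl⟩ := Nat.exists_eq_add_of_le h
  rw [add_comm, Function.iterate_add_apply, ha, iter_zero]

lemma exists_top (d : Derivation k R R) {a : R} (ha : a ≠ 0) (h : ∃ n : ℕ, (d : R → R)^[n] a = 0) :
    ∃ m : ℕ, (d : R → R)^[m] a ≠ 0 ∧ (d : R → R)^[m + 1] a = 0 := by
  classical
  have h0 : Nat.find h ≠ 0 := by
    intro h0
    have := Nat.find_spec h
    rw [h0] at this
    exact ha this
  obtain ⟨m, hm⟩ := Nat.exists_eq_succ_of_ne_zero h0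
  refine ⟨m, Nat.find_min h (by omega), ?_⟩
  have := Nat.find_spec h
  rwa [hm] at this

lemma iter_bilin (d : Derivation k R R) (β : R → R → R)
    (hβ : ∀ a b, d (β a b) = β (d a) b + β a (d b))
    (h0l : ∀ b, β 0 b = 0) (h0r : ∀ a, β a 0 = 0) :
    ∀ (N m n : ℕ) (a b : R), m + n = N → (d : R → R)^[m + 1] a = 0 → (d : R → R)^[n + 1] b = 0 →
      (d : R → R)^[N] (β a b) = ((N.choose m : ℕ) : R) * β ((d : R → R)^[m] a) ((d : R → R)^[n] b) := by
  intro N
  induction N with
  | zero =>
    intro m n a b h _ _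
    obtain rfl : m = 0 := by omega
    obtain rfl : n = 0 := by omega
    simp
  | succ N ih =>
    intro m n a b h ha hb
    rw [Function.iterate_succ_apply, hβ, iter_add]
    rcases m with _ | m
    · obtain rfl : n = N + 1 := by omega
      have ha' : d a = 0 := by simpa using ha
      rw [ha', h0l, iter_zero, zero_add, ih 0 N a (d b) (by omega) ha
        (by rw [← Function.iterate_succ_apply]; exact hb)]
      simp [Function.iterate_succ_apply]
    · rcases n with _ | n
      · obtain rfl : m = N := by omega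
        have hb' : d b = 0 := by simpa using hb
        rw [hb', h0r, iter_zero, add_zero, ih m 0 (d a) b (by omega)
          (by rw [← Function.iterate_succ_apply]; exact ha) hb]
        simp [Function.iterate_succ_apply]
      · rw [ih m (n + 1) (d a) b (by omega) (by rw [← Function.iterate_succ_apply]; exact ha) hb,
          ih (m + 1) n a (d b) (by omega) ha (by rw [← Function.iterate_succ_apply]; exact hb),
          Nat.choose_succ_succ]
        simp only [← Function.iterate_succ_apply]
        push_cast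
        ring

lemma iter_mul_top (d : Derivation k R R) (m n : ℕ) (a b : R)
    (ha : (d : R → R)^[m + 1] a = 0) (hb : (d : R → R)^[n + 1] b = 0) :
    (d : R → R)^[m + n] (a * b) =
      (((m + n).choose m : ℕ) : R) * ((d : R → R)^[m] a * (d : R → R)^[n] b) :=
  iter_bilin d (fun a b => a * b)
    (fun a b => by simp only [Derivation.leibniz, smul_eq_mul]; ring)
    (fun b => by simp) (fun a => by simp) (m + n) m n a b rfl ha hb

lemma nil_mul (d : Derivation k R R) {a b : R} (ha : ∃ n : ℕ, (d : R → R)^[n] a = 0)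
    (hb : ∃ n : ℕ, (d : R → R)^[n] b = 0) : ∃ n : ℕ, (d : R → R)^[n] (a * b) = 0 := by
  obtain ⟨m, hm⟩ := ha
  obtain ⟨n, hn⟩ := hb
  have hm' := iter_mono d (Nat.le_succ m) hm
  have hn' := iter_mono d (Nat.le_succ n) hn
  exact ⟨m + n, by rw [iter_mul_top d m n a b hm' hn', hm]; simp⟩

lemma nil_add (d : Derivation k R R) {a b : R} (ha : ∃ n : ℕ, (d : R → R)^[n] a = 0)
    (hb : ∃ n : ℕ, (d : R → R)^[n] b = 0) : ∃ n : ℕ, (d : R → R)^[n] (a + b) = 0 := by
  obtain ⟨m, hm⟩ := ha
  obtain ⟨n, hn⟩ := hb
  exact ⟨m + n, by rw [iter_add, iter_mono d (Nat.le_add_right m n) hm,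
    iter_mono d (Nat.le_add_left n m) hn, add_zero]⟩

/-- The kernel of a locally nilpotent derivation is factorially closed. -/
lemma LN.fact_closed [IsDomain R] [CharZero R] {d : Derivation k R R} (hd : LN d) {a b : R}
    (hab : a * b ≠ 0) (h : d (a * b) = 0) : d a = 0 := by
  obtain ⟨m, hm, hm'⟩ := exists_top d (left_ne_zero_of_mul hab) (hd a)
  obtain ⟨n, hn, hn'⟩ := exists_top d (right_ne_zero_of_mul hab) (hd b)
  have key := iter_mul_top d m n a b hm' hn'
  rcases m with _ | m
  · simpa using hm'
  · exfalso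
    have h0 : (d : R → R)^[m + 1 + n] (a * b) = 0 :=
      iter_mono d (m := 1) (by omega) (by simpa using h)
    rw [h0] at key
    have : ((m + 1 + n).choose (m + 1) : R) ≠ 0 :=
      Nat.cast_ne_zero.mpr (Nat.choose_pos (by omega)).ne'
    exact (mul_ne_zero this (mul_ne_zero hm hn)) key.symm

end general

section mv
variable {σ : Type*}

/-- A derivation of a polynomial ring that is nilpotent on the variables is locally nilpotent. -/
lemma LN_of_X (d : Derivation ℂ (MvPolynomial σ ℂ) (MvPolynomial σ ℂ))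
    (h : ∀ i, ∃ n : ℕ, (d : _ → _)^[n] (X i) = 0) : LN d := by
  intro p
  induction p using MvPolynomial.induction_on with
  | C a => exact ⟨1, by simp⟩
  | add p q hp hq => exact nil_add d hp hq
  | mul_X p i hp => exact nil_mul d hp (h i)

lemma LN_pderiv (i : σ) : LN (pderiv i : Derivation ℂ (MvPolynomial σ ℂ) (MvPolynomial σ ℂ)) := by
  classical
  refine LN_of_X _ fun j => ⟨2, ?_⟩
  by_cases h : j = i
  · subst h; simp
  · simp [pderiv_X_of_ne h]

lemma pderiv_comm' (i j : σ) (p : MvPolynomial σ ℂ) :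
    pderiv i (pderiv j p) = pderiv j (pderiv i p) := by
  classical
  induction p using MvPolynomial.induction_on with
  | C a => simp
  | add p q hp hq => simp [hp, hq]
  | mul_X p l hp =>
    simp only [Derivation.leibniz, smul_eq_mul, map_add, hp, pderiv_X]
    have h1 : ∀ a b c : σ, pderiv a (Pi.single (M := fun _ => MvPolynomial σ ℂ) b 1 c) = 0 := by
      intro a b c
      by_cases h : c = b
      · subst h; simp
      · simp [Pi.single_eq_of_ne h]
    rw [h1, h1]
    ring

/-- chain rule along an algebra map, for a derivation of the target -/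
lemma chain [Fintype σ] {B : Type*} [CommRing B] [Algebra ℂ B] (ψ : MvPolynomial σ ℂ →ₐ[ℂ] B)
    (d : Derivation ℂ B B) (p : MvPolynomial σ ℂ) :
    d (ψ p) = ∑ i, ψ (pderiv i p) * d (ψ (X i)) := by
  classical
  induction p using MvPolynomial.induction_on with
  | C a => simp
  | add p q hp hq => simp [hp, hq, add_mul, Finset.sum_add_distrib]
  | mul_X p l hp =>
    simp only [map_mul, Derivation.leibniz, smul_eq_mul, map_add, hp, pderiv_X, add_mul,
      Finset.sum_add_distrib, Finset.mul_sum]
    congr 1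
    · rw [Finset.sum_eq_single l]
      · simp
      · intro j _ hj
        simp [Pi.single_eq_of_ne hj.symm]
      · simp
    · exact Finset.sum_congr rfl fun j _ => by ring

lemma deriv_sum [Fintype σ] (d : Derivation ℂ (MvPolynomial σ ℂ) (MvPolynomial σ ℂ))
    (p : MvPolynomial σ ℂ) : d p = ∑ i, pderiv i p * d (X i) := by
  simpa using chain (AlgHom.id ℂ (MvPolynomial σ ℂ)) d p

end mv

/-- Jacobian determinant with respect to three maps. -/
def Jac {R : Type*} [CommRing R] (d : Fin 3 → R → R) (a b c : R) : R :=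
  d 0 a * (d 1 b * d 2 c - d 2 b * d 1 c) - d 1 a * (d 0 b * d 2 c - d 2 b * d 0 c)
    + d 2 a * (d 0 b * d 1 c - d 1 b * d 0 c)

abbrev P3 := MvPolynomial (Fin 3) ℂ
abbrev P4 := MvPolynomial (Fin 4) ℂ

/-- the rigid polynomial `H J W - H^2 + J^4` -/
noncomputable def gg : P3 := X 0 * X 1 * X 2 - X 0 ^ 2 + X 1 ^ 4

noncomputable def dz : Fin 3 → P3 → P3 := fun i p => pderiv i p

/-- No nonzero volume-compatible locally nilpotent derivation kills `gg`. -/
lemma rigid (d : Derivation ℂ P3 P3) (hd : LN d) (hg : d gg = 0)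
    (hJ : ∀ p q, d (Jac dz gg p q) = Jac dz gg (d p) q + Jac dz gg p (d q)) :
    ∀ i, d (X i) = 0 := by
  by_contra hne
  push Not at hne
  obtain ⟨i, hi⟩ := hne
  have hker : ∀ p q, d p = 0 → d q = 0 → Jac dz gg p q = 0 := by
    intro p q hp hq
    have e1 := deriv_sum d gg
    have e2 := deriv_sum d p
    have e3 := deriv_sum d q
    rw [hg] at e1; rw [hp] at e2; rw [hq] at e3
    simp only [Fin.sum_univ_three] at e1 e2 e3
    have : Jac dz gg p q * d (X i) = 0 := by
      unfold Jac dz
      fin_cases i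
      · simp only [Fin.zero_eta]
        linear_combination (-(pderiv 1 p * pderiv 2 q - pderiv 2 p * pderiv 1 q)) * e1
          + (pderiv 1 gg * pderiv 2 q - pderiv 2 gg * pderiv 1 q) * e2
          - (pderiv 1 gg * pderiv 2 p - pderiv 2 gg * pderiv 1 p) * e3
      · simp only [Fin.mk_one]
        linear_combination ((pderiv 0 p * pderiv 2 q - pderiv 2 p * pderiv 0 q)) * e1
          - (pderiv 0 gg * pderiv 2 q - pderiv 2 gg * pderiv 0 q) * e2
          + (pderiv 0 gg * pderiv 2 p - pderiv 2 gg * pderiv 0 p) * e3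
      · simp only [Fin.reduceFinMk]
        linear_combination (-(pderiv 0 p * pderiv 1 q - pderiv 1 p * pderiv 0 q)) * e1
          + (pderiv 0 gg * pderiv 1 q - pderiv 1 gg * pderiv 0 q) * e2
          - (pderiv 0 gg * pderiv 1 p - pderiv 1 gg * pderiv 0 p) * e3
    exact (mul_eq_zero.mp this).resolve_right hi
  obtain ⟨m, hm, hm'⟩ := exists_top d (X_ne_zero (R := ℂ) (0 : Fin 3)) (hd _)
  obtain ⟨n, hn, hn'⟩ := exists_top d (X_ne_zero (R := ℂ) (1 : Fin 3)) (hd _)
  have k1 := iter_mul_top d m n _ _ hm' hn'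
  have k2 := iter_bilin d (Jac dz gg) hJ (fun b => by simp [Jac, dz]) (fun b => by simp [Jac, dz])
    (m + n) m n _ _ rfl hm' hn'
  have k3 : Jac dz gg (X 0) (X 1) = X 0 * X 1 := by
    simp [Jac, dz, gg, pderiv_X]
  rw [k3, k1, hker _ _ (by rw [← Function.iterate_succ_apply' d]; exact hm')
    (by rw [← Function.iterate_succ_apply' d]; exact hn'), mul_zero] at k2
  have : ((m + n).choose m : P3) ≠ 0 := Nat.cast_ne_zero.mpr (Nat.choose_pos (by omega)).ne'
  exact (mul_ne_zero this (mul_ne_zero hm hn)) k2

end Crest.Agent.R268
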