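import Crest.Agent.R268.Fibres

set_option autoImplicit false

/-! `F = x + H J` is not a coordinate. -/

namespace Crest.Agent.R268

open MvPolynomial

noncomputable def psi : P4 →ₐ[ℂ] P4 := aeval ![FF, HH, JJ, W0]
@[simp] lemma psi_0 : psi (X 0) = FF := by simp [psi]
@[simp] lemma psi_1 : psi (X 1) = HH := by simp [psi]
@[simp] lemma psi_2 : psi (X 2) = JJ := by simp [psi]
@[simp] lemma psi_3 : psi (X 3) = W0 := by simp [psi]

lemma psi_inj : Function.Injective psi := by
  rw [injective_iff_map_eq_zero]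
  intro p hp
  have : X 0 * p = 0 := by
    apply MvPolynomial.funext
    intro v
    by_cases hc : v 0 = 0
    · simp [hc]
    · have e : ((aeval ![v 1, v 2, v 3] : P3 →ₐ[ℂ] ℂ).comp (phi (v 0))).comp psi = aeval v := by
        ext i : 1
        fin_cases i
        · simp [phi_F hc]
        · simp [phi_H hc]
        · simp [phi_J hc]
        · simp [phi_W hc]
      have e2 := DFunLike.congr_fun e p
      simp only [AlgHom.comp_apply, hp, map_zero] at e2
      have e3 : eval v p = 0 := e2.symm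
      simp [e3]
  exact (mul_eq_zero.mp this).resolve_left (X_ne_zero _)

lemma psi_loc (b : P4) : ∃ (n : ℕ) (p : P4), FF ^ n * b = psi p := by
  have hx : psi (X 0 - X 1 * X 2) = X 0 := by simp [FF]
  induction b using MvPolynomial.induction_on with
  | C a => exact ⟨0, C a, by simp⟩
  | add p q hp hq =>
    obtain ⟨m, p', hp⟩ := hp
    obtain ⟨n, q', hq⟩ := hq
    refine ⟨m + n, X 0 ^ n * p' + X 0 ^ m * q', ?_⟩
    simp only [map_add, map_mul, map_pow, psi_0, ← hp, ← hq]
    ring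
  | mul_X p i hp =>
    obtain ⟨m, p', hp⟩ := hp
    obtain ⟨n, q', hq⟩ : ∃ (n : ℕ) (q : P4), FF ^ n * X i = psi q := by
      fin_cases i
      · exact ⟨0, X 0 - X 1 * X 2, by simp [FF]⟩
      · exact ⟨2, A1 (X 0 - X 1 * X 2) (X 1) (X 2) (X 3), by
          rw [map_A1, hx, psi_1, psi_2, psi_3]; exact F_a1⟩
      · exact ⟨2, A2 (X 0 - X 1 * X 2) (X 1) (X 2) (X 3), by
          rw [map_A2, hx, psi_1, psi_2, psi_3]; exact F_a2⟩
      · exact ⟨6, B0 (X 0 - X 1 * X 2) (X 1) (X 2) (X 3), by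
          rw [map_B0, hx, psi_1, psi_2, psi_3]; exact F_b⟩
    refine ⟨m + n, p' * q', ?_⟩
    rw [map_mul, ← hp, ← hq]
    ring

lemma psi_incl (p : P3) : psi (incl p) = theta p := by
  have : psi.comp incl = theta := by
    ext i : 1
    fin_cases i <;> simp
  exact DFunLike.congr_fun this p

lemma F_dvd_g : FF ∣ theta gg := by
  have : theta gg = HH * JJ * W0 - HH ^ 2 + JJ ^ 4 := by simp [gg]
  rw [this]
  exact ⟨_, frame0.g_spec⟩

/-- pseudo-division by `gg` -/
lemma pseudo_div (p : P3) : ∃ (N : ℕ) (q : P3) (r : MvPolynomial (Fin 2) ℂ),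
    (X 0 * X 1) ^ N * p = gg * q + aeval ![(X 0 : P3), X 1] r := by
  induction p using MvPolynomial.induction_on with
  | C a => exact ⟨0, 0, C a, by simp⟩
  | add p q hp hq =>
    obtain ⟨m, p', r, hp⟩ := hp
    obtain ⟨n, q', s, hq⟩ := hq
    refine ⟨m + n, (X 0 * X 1) ^ n * p' + (X 0 * X 1) ^ m * q',
      (X 0 * X 1) ^ n * r + (X 0 * X 1) ^ m * s, ?_⟩
    simp only [map_add, map_mul, map_pow, aeval_X, Matrix.cons_val_zero, Matrix.cons_val_one]
    linear_combination (X 0 * X 1) ^ n * hp + (X 0 * X 1) ^ m * hq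
  | mul_X p i hp =>
    obtain ⟨m, p', r, hp⟩ := hp
    fin_cases i
    · refine ⟨m, p' * X 0, r * X 0, ?_⟩
      simp only [map_mul, aeval_X, Matrix.cons_val_zero, Fin.zero_eta]
      linear_combination X 0 * hp
    · refine ⟨m, p' * X 1, r * X 1, ?_⟩
      simp only [map_mul, aeval_X, Matrix.cons_val_zero, Matrix.cons_val_one, Fin.mk_one]
      linear_combination X 1 * hp
    · refine ⟨m + 1, p' * X 0 * X 1 * X 2 + aeval ![(X 0 : P3), X 1] r,
        r * (X 0 ^ 2 - X 1 ^ 4), ?_⟩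
      simp only [map_mul, map_sub, map_pow, aeval_X, Matrix.cons_val_zero, Matrix.cons_val_one,
        Fin.reduceFinMk]
      unfold gg at *
      linear_combination (X 0 * X 1 * X 2) * hp

lemma gg_dvd_of_mul {i : Fin 3} (hi : ¬ (X i : P3) ∣ gg) {p : P3} (h : gg ∣ X i * p) : gg ∣ p := by
  obtain ⟨r, hr⟩ := h
  have : (X i : P3) ∣ gg * r := ⟨_, hr.symm⟩
  obtain ⟨s, rfl⟩ := (X_prime.dvd_or_dvd this).resolve_left hi
  exact ⟨s, mul_left_cancel₀ (X_ne_zero i) (by linear_combination hr)⟩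

lemma ker_theta (p : P3) (h : FF ∣ theta p) : gg ∣ p := by
  have h0 : ∀ p : P3, FF ∣ theta p → phi0 (theta p) = 0 := by
    rintro p ⟨c, hc⟩
    rw [hc, map_mul, phi0_F, zero_mul]
  obtain ⟨N, q, r, e⟩ := pseudo_div p
  have hr : r = 0 := by
    have e1 := congrArg (fun t => phi0 (theta t)) e
    simp only [map_mul, map_add, h0 p h, h0 gg F_dvd_g, mul_zero, zero_mul, zero_add] at e1
    have : X 0 * X 1 * r = 0 := by
      apply MvPolynomial.funext
      intro v
      by_cases c0 : v 0 = 0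
      · simp [c0]
      by_cases c1 : v 1 = 0
      · simp [c1]
      have e2 : (((aeval ![v 0 / v 1, v 1 ^ 3 / v 0 ^ 2, 0] : P3 →ₐ[ℂ] ℂ).comp phi0).comp
          theta).comp (aeval ![(X 0 : P3), X 1]) = aeval v := by
        ext i : 1
        fin_cases i
        · simp [phi0_H]; field_simp
        · simp [phi0_J]; field_simp
      have e3 := DFunLike.congr_fun e2 r
      simp only [AlgHom.comp_apply, ← e1, map_zero] at e3
      have e4 : eval v r = 0 := e3.symm
      simp [e4]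
    exact (mul_eq_zero.mp this).resolve_left (mul_ne_zero (X_ne_zero _) (X_ne_zero _))
  rw [hr, map_zero, add_zero] at e
  have n0 : ¬ (X 0 : P3) ∣ gg := by
    rintro ⟨c, hc⟩
    have := congrArg (eval ![0, 1, 0]) hc
    simp [gg] at this
  have n1 : ¬ (X 1 : P3) ∣ gg := by
    rintro ⟨c, hc⟩
    have := congrArg (eval ![1, 0, 0]) hc
    simp [gg] at this
  have hd : gg ∣ (X 0 * X 1) ^ N * p := ⟨q, e⟩
  clear e
  induction N with
  | zero => simpa using hd
  | succ N ih =>
    apply ih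
    apply gg_dvd_of_mul n1
    apply gg_dvd_of_mul n0
    convert hd using 1
    ring

theorem not_coord : ¬ ∃ τ : P4 ≃ₐ[ℂ] P4, τ FF = X 0 := by
  rintro ⟨τ, hτ⟩
  refine descent ((τ : P4 →ₐ[ℂ] P4).comp psi) (τ.injective.comp psi_inj) (by simp [hτ]) ?_ ?_ ?_
  · intro b
    obtain ⟨n, p, hp⟩ := psi_loc (τ.symm b)
    refine ⟨n, p, ?_⟩
    show _ = τ (psi p)
    rw [← hp, map_mul, map_pow, hτ, AlgEquiv.apply_symm_apply]
  · intro p hp
    apply ker_theta
    rw [← psi_incl, ← map_dvd_iff τ, hτ]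
    exact hp
  · show X 0 ∣ τ (psi (incl gg))
    rw [← hτ, map_dvd_iff τ, psi_incl]
    exact F_dvd_g

end Crest.Agent.R268
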